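import Vale.Agent.P127H.Defs

/-! Module BIGL.  Hints: `x ↦ f x + l x` is injective (`l > L`); surjective (`ApproximatesLinearOn.toHomeomorph`
with `f' = l • id`, or Banach fixed point); so the images of `D` under `f + l` and `q + l` agree (they agree
on the complement).  `|det| = det`: `det (l + s A) ≠ 0` for `s ∈ [0,1]`, `‖A‖ ≤ L < l`, positive at `s = 0`.
Change of variables: `MeasureTheory.integral_image_eq_integral_abs_det_fderiv_smul` (no integrability). -/

open MeasureTheory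

namespace Vale.Agent.P127H

theorem BIGL_bij {m : ℕ} {f : Vec m → Vec m} {L : NNReal} (hf : LipschitzWith L f) {l : ℝ}
    (hl : (L : ℝ) < l) : Function.Bijective fun x => f x + l • x := by
  have hl0 : 0 < l := lt_of_le_of_lt L.2 hl
  constructor
  · intro x y hxy
    have h1 : l • (x - y) = f y - f x := by
      simp only at hxy
      rw [smul_sub]
      have : l • x = f y + l • y - f x := by rw [← hxy, add_sub_cancel_left]
      rw [this]
      abel
    have h2 : l * ‖x - y‖ ≤ L * ‖x - y‖ := by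
      have h3 : ‖l • (x - y)‖ = l * ‖x - y‖ := by
        rw [norm_smul, Real.norm_eq_abs, abs_of_pos hl0]
      rw [← h3, h1]
      have h4 := hf.dist_le_mul y x
      rwa [dist_eq_norm, dist_eq_norm, norm_sub_rev y x] at h4
    have h3 : ‖x - y‖ = 0 := by
      by_contra h
      have h4 : 0 < ‖x - y‖ := lt_of_le_of_ne (norm_nonneg _) (Ne.symm h)
      exact absurd h2 (not_le.2 (mul_lt_mul_of_pos_right hl h4))
    exact sub_eq_zero.1 (norm_eq_zero.1 h3)
  · intro y
    have hK' : ((L / Real.toNNReal l : NNReal) : ℝ) = L / l := by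
      rw [NNReal.coe_div, Real.coe_toNNReal l hl0.le]
    have hK : (L / Real.toNNReal l : NNReal) < 1 := by
      rw [← NNReal.coe_lt_coe, hK', NNReal.coe_one]
      exact (div_lt_one hl0).2 hl
    have hc : ContractingWith (L / Real.toNNReal l : NNReal) fun x => l⁻¹ • (y - f x) := by
      refine ⟨hK, LipschitzWith.of_dist_le_mul fun a b => ?_⟩
      rw [dist_eq_norm, ← smul_sub, norm_smul, Real.norm_eq_abs, abs_of_pos (inv_pos.2 hl0)]
      have h1 : y - f a - (y - f b) = f b - f a := by abel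
      rw [h1]
      have h2 := hf.dist_le_mul b a
      rw [dist_eq_norm, dist_comm b a] at h2
      rw [hK']
      calc l⁻¹ * ‖f b - f a‖ ≤ l⁻¹ * (L * dist a b) :=
            mul_le_mul_of_nonneg_left h2 (inv_pos.2 hl0).le
        _ = (L : ℝ) / l * dist a b := by ring
    obtain ⟨z, hz⟩ : ∃ z, l⁻¹ • (y - f z) = z := ⟨_, hc.fixedPoint_isFixedPt⟩
    refine ⟨z, ?_⟩
    have h2 : l • z = y - f z := by
      conv_lhs => rw [← hz]
      rw [smul_inv_smul₀ hl0.ne']
    show f z + l • z = y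
    rw [h2]
    abel

private theorem BIGL_ne {m : ℕ} (A : Vec m →L[ℝ] Vec m) {l : ℝ} (hl : ‖A‖ < l) {s : ℝ}
    (hs0 : 0 ≤ s) (hs1 : s ≤ 1) : (s • A + l • ContinuousLinearMap.id ℝ (Vec m)).det ≠ 0 := by
  intro h
  have h1 := LinearMap.bot_lt_ker_of_det_eq_zero
    (f := ((s • A + l • ContinuousLinearMap.id ℝ (Vec m) : Vec m →L[ℝ] Vec m) :
      Vec m →ₗ[ℝ] Vec m)) h
  obtain ⟨x, hx, hx0⟩ := Submodule.exists_mem_ne_zero_of_ne_bot h1.ne'
  have h2 : s • A x + l • x = 0 := hx
  have hl0 : 0 < l := lt_of_le_of_lt (norm_nonneg _) hl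
  have hxn : 0 < ‖x‖ := norm_pos_iff.2 hx0
  have h3 : ‖l • x‖ = ‖s • A x‖ := by
    rw [← norm_neg (s • A x)]
    congr 1
    exact eq_neg_of_add_eq_zero_right h2
  rw [norm_smul, norm_smul, Real.norm_eq_abs, Real.norm_eq_abs, abs_of_pos hl0,
    abs_of_nonneg hs0] at h3
  have h4 : s * ‖A x‖ ≤ ‖A‖ * ‖x‖ := by
    calc s * ‖A x‖ ≤ 1 * ‖A x‖ := mul_le_mul_of_nonneg_right hs1 (norm_nonneg _)
      _ = ‖A x‖ := one_mul _
      _ ≤ _ := A.le_opNorm x
  have h5 : ‖A‖ * ‖x‖ < l * ‖x‖ := mul_lt_mul_of_pos_right hl hxn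
  linarith

theorem BIGL_det {m : ℕ} (A : Vec m →L[ℝ] Vec m) {l : ℝ} (hl : ‖A‖ < l) :
    0 < (A + l • ContinuousLinearMap.id ℝ (Vec m)).det := by
  have hl0 : 0 < l := lt_of_le_of_lt (norm_nonneg _) hl
  have hcont : Continuous fun s : ℝ => (s • A + l • ContinuousLinearMap.id ℝ (Vec m)).det :=
    ContinuousLinearMap.continuous_det.comp
      ((continuous_id.smul continuous_const).add continuous_const)
  have h0 : 0 < ((0 : ℝ) • A + l • ContinuousLinearMap.id ℝ (Vec m)).det := by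
    rw [zero_smul, zero_add]
    have : (l • ContinuousLinearMap.id ℝ (Vec m)).det = l ^ m := by
      show LinearMap.det (l • (LinearMap.id : Vec m →ₗ[ℝ] Vec m)) = l ^ m
      rw [LinearMap.det_smul, LinearMap.det_id, mul_one]
      simp [Vec]
    rw [this]
    positivity
  by_contra hneg
  have h1' : ((1 : ℝ) • A + l • ContinuousLinearMap.id ℝ (Vec m)).det ≤ 0 := by
    rw [one_smul]
    exact not_lt.1 hneg
  obtain ⟨s, hs, hs0⟩ := intermediate_value_Icc' (zero_le_one (α := ℝ)) hcont.continuousOn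
    ⟨h1', h0.le⟩
  exact BIGL_ne A hl hs.1 hs.2 hs0

private theorem BIGL_cov {m : ℕ} {f : Vec m → Vec m} (hf : ContDiff ℝ 1 f)
    {L : NNReal} (hfL : LipschitzWith L f) {D : Set (Vec m)}
    (hD : MeasurableSet D) {l : ℝ} (hl : (L : ℝ) < l) (g : Vec m → ℝ) :
    ∫ v in D, g (f v + l • v) * J f l v = ∫ v in (fun x => f x + l • x) '' D, g v := by
  have hd : ∀ x, HasFDerivAt (fun x => f x + l • x)
      (fderiv ℝ f x + l • ContinuousLinearMap.id ℝ (Vec m)) x := fun x =>
    ((hf.differentiable (by simp)) x).hasFDerivAt.add ((hasFDerivAt_id x).const_smul l)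
  rw [integral_image_eq_integral_abs_det_fderiv_smul volume hD
    (fun x _ => (hd x).hasFDerivWithinAt) (BIGL_bij hfL hl).1.injOn]
  refine integral_congr_ae (Filter.Eventually.of_forall fun v => ?_)
  show g (f v + l • v) * J f l v =
    |(fderiv ℝ f v + l • ContinuousLinearMap.id ℝ (Vec m)).det| • g (f v + l • v)
  have h1 : 0 < (fderiv ℝ f v + l • ContinuousLinearMap.id ℝ (Vec m)).det :=
    BIGL_det _ (lt_of_le_of_lt (norm_fderiv_le_of_lipschitz ℝ hfL) hl)
  rw [abs_of_pos h1, smul_eq_mul, mul_comm]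
  rfl

theorem big_lambda {m : ℕ} {f q : Vec m → Vec m} (hf : ContDiff ℝ 1 f) (hq : ContDiff ℝ 1 q)
    {L : NNReal} (hfL : LipschitzWith L f) (hqL : LipschitzWith L q) {D : Set (Vec m)}
    (hD : MeasurableSet D) (hfq : ∀ v, v ∉ D → f v = q v) {l : ℝ} (hl : (L : ℝ) < l)
    (g : Vec m → ℝ) :
    ∫ v in D, g (f v + l • v) * J f l v = ∫ v in D, g (q v + l • v) * J q l v := by
  rw [BIGL_cov hf hfL hD hl, BIGL_cov hq hqL hD hl]
  have h1 : (fun x => f x + l • x) '' D = (fun x => q x + l • x) '' D := by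
    rw [← compl_inj_iff, ← Set.image_compl_eq (BIGL_bij hfL hl),
      ← Set.image_compl_eq (BIGL_bij hqL hl)]
    refine Set.image_congr fun v hv => ?_
    rw [hfq v hv]
  rw [h1]

end Vale.Agent.P127H
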