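import Vale.Agent.P127H.Defs

/-! Module NULLP.  Hints: `{v | det ≠ 0}` is open; at each of its points `F` is a local homeomorphism with `C¹` inverse
(`ContDiffAt.toOpenPartialHomeomorph` or `HasStrictFDerivAt.toOpenPartialHomeomorph`), and locally Lipschitz /
differentiable maps send null sets to null sets (`addHaar_image_eq_zero_of_differentiableOn_of_addHaar_eq_zero`);
Lindelöf.  Alternative: `exists_partition_approximatesLinearOn_of_hasFDerivWithinAt` plus the area formula
`lintegral_abs_det_fderiv_eq_addHaar_image` on the pieces. -/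

open MeasureTheory

namespace Vale.Agent.P127H

/-- local injectivity at the regular points -/
private theorem nullp_local {m : ℕ} {F : Vec m → Vec m} (hF : ContDiff ℝ 1 F) (v : Vec m)
    (hv : (fderiv ℝ F v).det ≠ 0) : ∃ U : Set (Vec m), IsOpen U ∧ v ∈ U ∧ Set.InjOn F U := by
  have hst : HasStrictFDerivAt F (fderiv ℝ F v) v :=
    hF.contDiffAt.hasStrictFDerivAt one_ne_zero
  have hst' : HasStrictFDerivAt F
      (((fderiv ℝ F v).toContinuousLinearEquivOfDetNeZero hv : Vec m ≃L[ℝ] Vec m) :
        Vec m →L[ℝ] Vec m) v := by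
    rw [ContinuousLinearMap.coe_toContinuousLinearEquivOfDetNeZero]
    exact hst
  refine ⟨(hst'.toOpenPartialHomeomorph F).source, (hst'.toOpenPartialHomeomorph F).open_source,
    hst'.mem_toOpenPartialHomeomorph_source, ?_⟩
  have h := (hst'.toOpenPartialHomeomorph F).injOn
  rwa [hst'.toOpenPartialHomeomorph_coe] at h

theorem null_preimage {m : ℕ} {F : Vec m → Vec m} (hF : ContDiff ℝ 1 F) {K : Set (Vec m)}
    (hK : volume K = 0) : ∀ᵐ v, F v ∈ K → (fderiv ℝ F v).det = 0 := by
  classical
  have hK' : volume (toMeasurable volume K) = 0 := by rw [measure_toMeasurable]; exact hK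
  have hdet : Continuous fun v => (fderiv ℝ F v).det :=
    ContinuousLinearMap.continuous_det.comp (hF.continuous_fderiv one_ne_zero)
  set O : Set (Vec m) := {v | (fderiv ℝ F v).det ≠ 0} with hO
  have hOopen : IsOpen O := isOpen_ne_fun hdet continuous_const
  have hloc : ∀ v : Vec m, ∃ U : Set (Vec m), IsOpen U ∧ (v ∈ O → v ∈ U ∧ Set.InjOn F U) := by
    intro v
    by_cases hv : v ∈ O
    · obtain ⟨U, h1, h2, h3⟩ := nullp_local hF v hv
      exact ⟨U, h1, fun _ => ⟨h2, h3⟩⟩
    · exact ⟨∅, isOpen_empty, fun h => absurd h hv⟩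
  choose U hU1 hU2 using hloc
  obtain ⟨t, htO, htc, hcov⟩ := TopologicalSpace.countable_cover_nhdsWithin
    (s := O) (f := U) (fun v hv => mem_nhdsWithin_of_mem_nhds ((hU1 v).mem_nhds (hU2 v hv).1))
  -- each piece is null
  have hpiece : ∀ w ∈ t, volume (U w ∩ O ∩ F ⁻¹' (toMeasurable volume K)) = 0 := by
    intro w hw
    set s := U w ∩ O ∩ F ⁻¹' (toMeasurable volume K) with hs
    have hsm : MeasurableSet s := ((hU1 w).inter hOopen).measurableSet.inter
      (hF.continuous.measurable (measurableSet_toMeasurable _ _))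
    have hinj : Set.InjOn F s := (hU2 w (htO hw)).2.mono fun x hx => hx.1.1
    have hint := lintegral_abs_det_fderiv_eq_addHaar_image volume hsm
      (fun x _ => ((hF.differentiable one_ne_zero x).hasFDerivAt).hasFDerivWithinAt) hinj
    have hz : volume (F '' s) = 0 := by
      refine measure_mono_null ?_ hK'
      rintro y ⟨x, hx, rfl⟩
      exact hx.2
    rw [hz] at hint
    have hmeas : Measurable fun x => ENNReal.ofReal |(fderiv ℝ F x).det| :=
      (hdet.abs.measurable).ennreal_ofReal
    rw [lintegral_eq_zero_iff hmeas] at hint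
    have hae : ∀ᵐ x ∂volume, x ∈ s → ENNReal.ofReal |(fderiv ℝ F x).det| = 0 :=
      (ae_restrict_iff' hsm).1 hint
    have hnot : ∀ᵐ x ∂volume, x ∉ s := by
      filter_upwards [hae] with x hx hxs
      have h1 := hx hxs
      rw [ENNReal.ofReal_eq_zero] at h1
      exact hxs.1.2 (abs_nonpos_iff.1 h1)
    exact measure_eq_zero_iff_ae_notMem.2 hnot
  have hall : volume (O ∩ F ⁻¹' K) = 0 := by
    refine measure_mono_null ?_ ((measure_biUnion_null_iff htc).2 hpiece)
    rintro x ⟨hx, hxK⟩
    obtain ⟨w, hw, hxw⟩ := Set.mem_iUnion₂.1 (hcov hx)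
    exact Set.mem_iUnion₂.2 ⟨w, hw, ⟨hxw, hx⟩, subset_toMeasurable _ _ hxK⟩
  filter_upwards [measure_eq_zero_iff_ae_notMem.1 hall] with v hv hvK
  by_contra h
  exact hv ⟨h, hvK⟩

end Vale.Agent.P127H
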