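import Vale.Agent.P127H.Tel
import Vale.Agent.P127H.NullP

/-! Module CON1.  Hints: `K = (fun v => a v + t v) '' Icc 0 1` is compact (`a` is continuous), `box m s ⊆ Icc 0 1` for
`s ≥ 0`.  `η_i x = min 1 (max 0 (2 - i * Metric.infDist x K))`: continuous, `[0,1]`-valued, `= 1` if
`infDist x K ≤ 1/i`, and `η_i x → indicator K 1 x`.  For `k` large `η_i (b k v + t v) = 1` on `box m 0`, so
`|Phi (b J) t 0 1| ≤ |Phi (b J) t 0 η_i| + 2 C' 2^(-Jβ)`; `i → ∞` by dominated convergence and `null_preimage`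
applied to `F v = b J v + t v` (`fderiv F = fderiv (b J) + t id`). -/

open MeasureTheory

namespace Vale.Agent.P127H

theorem con1 {m : ℕ} {a : Vec m → Vec m} (ha : Continuous a) {b : ℕ → Vec m → Vec m}
    {M C' β α T : ℝ} (hC' : 0 ≤ C') (hβ : 0 < β) (hM : 0 ≤ M) (hα : 0 < α)
    (hb : ∀ j, ContDiff ℝ 1 (b j))
    (hba : ∀ j v, ‖b j v - a v‖ ≤ M * ((1 / 2 : ℝ) ^ j) ^ α)
    (htel : ∀ J k : ℕ, J ≤ k → ∀ t : ℝ, |t| ≤ T → ∀ η : Vec m → ℝ, Continuous η →
      (∀ x, |η x| ≤ 1) →
        |Phi (b J) t 0 η - Phi (b k) t (((1 / 2 : ℝ) ^ J - (1 / 2 : ℝ) ^ k) / 4) η| ≤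
          C' * ((1 / 2 : ℝ) ^ J) ^ β)
    {t : ℝ} (ht : |t| ≤ T) (hnull : volume ((fun v => a v + t • v) '' Set.Icc 0 1) = 0) (J : ℕ) :
    |Phi (b J) t 0 (fun _ => 1)| ≤ 2 * C' * ((1 / 2 : ℝ) ^ J) ^ β := by
  have hcont : Continuous (fun v : Vec m => a v + t • v) := by fun_prop
  have hKc : IsCompact ((fun v => a v + t • v) '' Set.Icc (0 : Vec m) 1) :=
    isCompact_Icc.image hcont
  have hKne : ((fun v => a v + t • v) '' Set.Icc (0 : Vec m) 1).Nonempty :=
    ⟨_, 0, ⟨le_rfl, zero_le_one⟩, rfl⟩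
  set K := (fun v => a v + t • v) '' Set.Icc (0 : Vec m) 1 with hKdef
  have hbox : ∀ s : ℝ, 0 ≤ s → box m s ⊆ Set.Icc (0 : Vec m) 1 := by
    intro s hs v hv
    have h := fun i => hv i (Set.mem_univ i)
    refine ⟨fun i => ?_, fun i => ?_⟩
    · have := (h i).1
      simp only [Pi.zero_apply]
      linarith
    · have := (h i).2
      simp only [Pi.one_apply]
      linarith
  have hJc := continuous_J (hb J) t
  let η : ℕ → Vec m → ℝ := fun i x => max 0 (min 1 (2 - ((i : ℝ) + 1) * Metric.infDist x K))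
  have hηc : ∀ i, Continuous (η i) := by
    intro i
    have h := Metric.continuous_infDist_pt K
    exact continuous_const.max (continuous_const.min (continuous_const.sub
      (continuous_const.mul h)))
  have hη0 : ∀ i x, 0 ≤ η i x := fun i x => le_max_left _ _
  have hη1 : ∀ i x, η i x ≤ 1 := fun i x => max_le zero_le_one (min_le_left _ _)
  have hηabs : ∀ i x, |η i x| ≤ 1 := fun i x => by
    rw [abs_of_nonneg (hη0 i x)]
    exact hη1 i x
  have key : ∀ i, |Phi (b J) t 0 (fun _ => 1)| ≤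
      |Phi (b J) t 0 (η i)| + 2 * C' * ((1 / 2 : ℝ) ^ J) ^ β := by
    intro i
    have hlim : Filter.Tendsto (fun k : ℕ => M * ((1 / 2 : ℝ) ^ k) ^ α) Filter.atTop
        (nhds (M * 0)) := by
      refine Filter.Tendsto.const_mul M ?_
      have h1 : Filter.Tendsto (fun k : ℕ => (1 / 2 : ℝ) ^ k) Filter.atTop (nhds 0) :=
        tendsto_pow_atTop_nhds_zero_of_lt_one (by norm_num) (by norm_num)
      have h2 := h1.rpow_const (p := α) (Or.inr hα.le)
      rwa [Real.zero_rpow hα.ne'] at h2
    have hi : (0 : ℝ) < 1 / ((i : ℝ) + 1) := by positivity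
    rw [mul_zero] at hlim
    obtain ⟨k, hk1, hk2⟩ := ((hlim.eventually (gt_mem_nhds hi)).and
      (Filter.eventually_ge_atTop J)).exists
    have hone : ∀ v ∈ box m 0, η i (b k v + t • v) = 1 := by
      intro v hv
      have hd : Metric.infDist (b k v + t • v) K ≤ 1 / ((i : ℝ) + 1) := by
        have hmem : a v + t • v ∈ K := ⟨v, hbox 0 le_rfl hv, rfl⟩
        refine (Metric.infDist_le_dist_of_mem hmem).trans ?_
        rw [dist_add_right, dist_eq_norm]
        exact (hba k v).trans hk1.le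
      have h3 : ((i : ℝ) + 1) * Metric.infDist (b k v + t • v) K ≤ 1 := by
        have h4 : (0 : ℝ) < (i : ℝ) + 1 := by positivity
        rw [mul_comm]
        rwa [le_div_iff₀ h4] at hd
      change max 0 (min 1 (2 - ((i : ℝ) + 1) * Metric.infDist (b k v + t • v) K)) = 1
      rw [min_eq_left (by linarith), max_eq_right zero_le_one]
    have hs : (0 : ℝ) ≤ ((1 / 2 : ℝ) ^ J - (1 / 2 : ℝ) ^ k) / 4 := by
      have : (1 / 2 : ℝ) ^ k ≤ (1 / 2 : ℝ) ^ J :=
        pow_le_pow_of_le_one (by norm_num) (by norm_num) hk2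
      linarith
    have hPhi : Phi (b k) t (((1 / 2 : ℝ) ^ J - (1 / 2 : ℝ) ^ k) / 4) (η i) =
        Phi (b k) t (((1 / 2 : ℝ) ^ J - (1 / 2 : ℝ) ^ k) / 4) (fun _ => 1) := by
      unfold Phi
      refine setIntegral_congr_fun (box_meas m _).1 fun v hv => ?_
      simp only [hone v (box_anti hs hv)]
    have e1 := htel J k hk2 t ht (η i) (hηc i) (hηabs i)
    have e2 := htel J k hk2 t ht (fun _ => 1) continuous_const (fun x => by rw [abs_one])
    rw [hPhi] at e1
    set P1 := Phi (b J) t 0 (fun _ => 1)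
    set P2 := Phi (b k) t (((1 / 2 : ℝ) ^ J - (1 / 2 : ℝ) ^ k) / 4) (fun _ => 1)
    set P3 := Phi (b J) t 0 (η i)
    have e3 : |P1| ≤ |P1 - P2| + |P2 - P3| + |P3| := by
      have h1 : P1 = (P1 - P2) + (P2 - P3) + P3 := by ring
      calc |P1| = |(P1 - P2) + (P2 - P3) + P3| := by rw [← h1]
        _ ≤ |(P1 - P2) + (P2 - P3)| + |P3| := abs_add_le _ _
        _ ≤ |P1 - P2| + |P2 - P3| + |P3| := by
          have := abs_add_le (P1 - P2) (P2 - P3)
          linarith
    rw [abs_sub_comm P3 P2] at e1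
    linarith
  -- the limit
  have hfd : ∀ v, fderiv ℝ (fun v => b J v + t • v) v =
      fderiv ℝ (b J) v + t • ContinuousLinearMap.id ℝ (Vec m) := by
    intro v
    have h1 : HasFDerivAt (b J) (fderiv ℝ (b J) v) v :=
      ((hb J).differentiable one_ne_zero v).hasFDerivAt
    exact (h1.add ((hasFDerivAt_id v).const_smul t)).fderiv
  have hFc : ContDiff ℝ 1 (fun v => b J v + t • v) := (hb J).add (contDiff_id.const_smul t)
  have hnp := null_preimage hFc hnull
  have hlim : Filter.Tendsto (fun i => Phi (b J) t 0 (η i)) Filter.atTop (nhds 0) := by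
    suffices h : Filter.Tendsto (fun i => ∫ v in box m 0,
        η i (b J v + t • v) * Vale.Agent.P127H.J (b J) t v) Filter.atTop
        (nhds (∫ _v in box m 0, (0 : ℝ))) by
      rw [integral_zero] at h
      exact h
    refine tendsto_integral_of_dominated_convergence (fun v => |Vale.Agent.P127H.J (b J) t v|)
      (fun i => ?_) ?_ (fun i => ?_) ?_
    · exact (((hηc i).comp hFc.continuous).mul hJc).aestronglyMeasurable
    · exact ((hJc.abs.continuousOn).integrableOn_compact isCompact_Icc).mono_set (hbox 0 le_rfl)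
    · refine Filter.Eventually.of_forall fun v => ?_
      rw [Real.norm_eq_abs, abs_mul]
      exact mul_le_of_le_one_left (abs_nonneg _) (hηabs i _)
    · refine ae_restrict_of_ae ?_
      filter_upwards [hnp] with v hv
      by_cases hvK : b J v + t • v ∈ K
      · have h0 : Vale.Agent.P127H.J (b J) t v = 0 := by
          have := hv hvK
          rw [hfd v] at this
          exact this
        simp only [h0, mul_zero]
        exact tendsto_const_nhds
      · have hpos : 0 < Metric.infDist (b J v + t • v) K :=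
          (hKc.isClosed.notMem_iff_infDist_pos hKne).1 hvK
        obtain ⟨n, hn⟩ := exists_nat_gt (2 / Metric.infDist (b J v + t • v) K)
        have hev : ∀ᶠ i : ℕ in Filter.atTop,
            (0 : ℝ) = η i (b J v + t • v) * Vale.Agent.P127H.J (b J) t v := by
          filter_upwards [Filter.eventually_ge_atTop n] with i hi
          have h1 : 2 ≤ ((i : ℝ) + 1) * Metric.infDist (b J v + t • v) K := by
            have h2 : (n : ℝ) ≤ i := by exact_mod_cast hi
            rw [div_lt_iff₀ hpos] at hn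
            nlinarith
          have h0 : η i (b J v + t • v) = 0 := by
            change max 0 (min 1 (2 - ((i : ℝ) + 1) * Metric.infDist (b J v + t • v) K)) = 0
            exact max_eq_left ((min_le_right _ _).trans (by linarith))
          rw [h0, zero_mul]
        exact Filter.Tendsto.congr' hev tendsto_const_nhds
  have h1 : Filter.Tendsto (fun i => |Phi (b J) t 0 (η i)| + 2 * C' * ((1 / 2 : ℝ) ^ J) ^ β)
      Filter.atTop (nhds (|(0 : ℝ)| + 2 * C' * ((1 / 2 : ℝ) ^ J) ^ β)) :=
    (hlim.abs).add_const _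
  rw [abs_zero, zero_add] at h1
  exact ge_of_tendsto' h1 key

end Vale.Agent.P127H
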