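import Vale.Agent.P127H.Con1

/-! Module CON2 (main proposition), SCALE.  Hints CON2: `lead_coeff` and `det_poly` give weights with
`∑ w i * J f (t i) v = 1` for all `v`; integrate over `box m 0` (volume 1); `con1` and `J → ∞`.
SCALE: `x ∈ [0,1]^m ↦ c + 2 r (x - 1/2)`; `clamp` is 1-Lipschitz; put
`ã x = (2 r)⁻¹ • a (c + 2 r (clamp x - 1/2))`, then the images of `Icc 0 1` under `ã + t` and of
`closedBall c r` under `a + t` differ by a similarity. -/

open MeasureTheory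

namespace Vale.Agent.P127H

theorem CON2_cont {m : ℕ} {a : Vec m → Vec m} {C α : ℝ} (hα : 0 < α)
    (ha : ∀ v w, ‖a v - a w‖ ≤ C * ‖v - w‖ ^ α) : Continuous a := by
  refine continuous_iff_continuousAt.2 fun w => ?_
  refine tendsto_iff_norm_sub_tendsto_zero.2 ?_
  have h1 : Filter.Tendsto (fun v : Vec m => C * ‖v - w‖ ^ α) (nhds w) (nhds (C * ‖w - w‖ ^ α)) := by
    have hc : Continuous fun v : Vec m => C * ‖v - w‖ ^ α :=
      continuous_const.mul (((continuous_id.sub continuous_const).norm).rpow_const fun _ => Or.inr hα.le)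
    exact hc.tendsto w
  rw [sub_self, norm_zero, Real.zero_rpow hα.ne', mul_zero] at h1
  exact squeeze_zero (fun v => norm_nonneg _) (fun v => ha v w) h1

theorem CON2_int {m : ℕ} {f : Vec m → Vec m} (hf : ContDiff ℝ 1 f) (t : ℝ) :
    IntegrableOn (fun v => J f t v) (box m 0) := by
  have hc : IsCompact (closure (box m 0)) := (box_bdd m 0).isCompact_closure
  exact (((continuous_J hf t).continuousOn (s := closure (box m 0))).integrableOn_compact hc).mono_set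
    subset_closure

theorem CON2_sum {m : ℕ} {f : Vec m → Vec m} (hf : ContDiff ℝ 1 f) (t w : Fin (m + 1) → ℝ)
    (hw : ∀ p : Polynomial ℝ, p.Monic → p.natDegree = m → ∑ i, w i * p.eval (t i) = 1) :
    ∑ i, w i * Phi f (t i) 0 (fun _ => 1) = 1 := by
  have h1 : ∀ i, w i * Phi f (t i) 0 (fun _ => 1) = ∫ v in box m 0, w i * J f (t i) v := by
    intro i
    unfold Phi
    simp only [one_mul]
    rw [integral_const_mul]
  have h2 : ∀ v, ∑ i, w i * J f (t i) v = 1 := by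
    intro v
    obtain ⟨p, hp, hd, he⟩ := det_poly (fderiv ℝ f v)
    rw [← hw p hp hd]
    refine Finset.sum_congr rfl fun i _ => ?_
    unfold J
    rw [he]
  rw [Finset.sum_congr rfl fun i _ => h1 i,
    ← integral_finsetSum _ fun i _ => (CON2_int hf (t i)).const_mul (w i)]
  simp only [h2]
  rw [setIntegral_const, smul_eq_mul, mul_one]
  unfold Measure.real
  rw [vol_box0]
  rfl

theorem con2 {m : ℕ} {a : Vec m → Vec m} {C α : ℝ} (hC : 0 ≤ C) (hα : 0 < α) (hα1 : α ≤ 1)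
    (hmα : (m : ℝ) - 1 < m * α) (ha : ∀ v w, ‖a v - a w‖ ≤ C * ‖v - w‖ ^ α)
    (t : Fin (m + 1) → ℝ) (ht : Function.Injective t) :
    ∃ i, volume ((fun v => a v + t i • v) '' Set.Icc 0 1) ≠ 0 := by
  by_contra hcon
  push Not at hcon
  have hT : 0 ≤ ∑ i, |t i| := Finset.sum_nonneg fun i _ => abs_nonneg _
  have htT : ∀ i, |t i| ≤ ∑ i, |t i| := fun i =>
    Finset.single_le_sum (f := fun i => |t i|) (fun j _ => abs_nonneg _) (Finset.mem_univ i)
  obtain ⟨b, M, C', β, hC', hβ, hM, hb, hba, htel⟩ := telescope hC hα hα1 hmα hT ha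
  obtain ⟨w, hw⟩ := lead_coeff t ht
  have hcont := CON2_cont hα ha
  have hbd : ∀ n : ℕ, (1 : ℝ) ≤ (∑ i, |w i|) * (2 * C') * ((1 / 2 : ℝ) ^ n) ^ β := by
    intro n
    have h1 := CON2_sum (hb n) t w hw
    calc (1 : ℝ) = |∑ i, w i * Phi (b n) (t i) 0 (fun _ => 1)| := by rw [h1, abs_one]
      _ ≤ ∑ i, |w i * Phi (b n) (t i) 0 (fun _ => 1)| := Finset.abs_sum_le_sum_abs _ _
      _ ≤ ∑ i, |w i| * (2 * C' * ((1 / 2 : ℝ) ^ n) ^ β) := by
          refine Finset.sum_le_sum fun i _ => ?_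
          rw [abs_mul]
          exact mul_le_mul_of_nonneg_left
            (con1 hcont hC' hβ hM hα hb hba htel (htT i) (hcon i) n) (abs_nonneg _)
      _ = (∑ i, |w i|) * (2 * C') * ((1 / 2 : ℝ) ^ n) ^ β := by
          rw [← Finset.sum_mul]
          ring
  have hlim : Filter.Tendsto (fun n : ℕ => (∑ i, |w i|) * (2 * C') * ((1 / 2 : ℝ) ^ n) ^ β)
      Filter.atTop (nhds 0) := by
    have h1 : Filter.Tendsto (fun n : ℕ => (1 / 2 : ℝ) ^ n) Filter.atTop (nhds 0) :=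
      tendsto_pow_atTop_nhds_zero_of_lt_one (by norm_num) (by norm_num)
    have h2 : Filter.Tendsto (fun n : ℕ => ((1 / 2 : ℝ) ^ n) ^ β) Filter.atTop (nhds ((0 : ℝ) ^ β)) :=
      h1.rpow_const (Or.inr hβ.le)
    rw [Real.zero_rpow hβ.ne'] at h2
    have h3 := h2.const_mul ((∑ i, |w i|) * (2 * C'))
    rwa [mul_zero] at h3
  have := ge_of_tendsto' hlim hbd
  linarith

/-- clamp to the unit cube -/
def SCALE_cl {m : ℕ} (x : Vec m) : Vec m := fun i => max 0 (min 1 (x i))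

theorem SCALE_cl_mem {m : ℕ} (x : Vec m) : SCALE_cl x ∈ Set.Icc (0 : Vec m) 1 :=
  ⟨fun _ => le_max_left _ _, fun _ => max_le zero_le_one (min_le_left _ _)⟩

theorem SCALE_cl_eq {m : ℕ} {x : Vec m} (hx : x ∈ Set.Icc (0 : Vec m) 1) : SCALE_cl x = x := by
  funext i
  unfold SCALE_cl
  have h1 : (0 : ℝ) ≤ x i := hx.1 i
  have h2 : x i ≤ (1 : ℝ) := hx.2 i
  rw [min_eq_right h2, max_eq_right h1]

theorem SCALE_cl_lip {m : ℕ} (x y : Vec m) : ‖SCALE_cl x - SCALE_cl y‖ ≤ ‖x - y‖ := by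
  refine (pi_norm_le_iff_of_nonneg (norm_nonneg _)).2 fun i => ?_
  refine le_trans ?_ (norm_le_pi_norm (x - y) i)
  rw [Pi.sub_apply, Pi.sub_apply, Real.norm_eq_abs, Real.norm_eq_abs]
  unfold SCALE_cl
  have h1 : |max 0 (min 1 (x i)) - max 0 (min 1 (y i))| ≤ |min 1 (x i) - min 1 (y i)| := by
    have := abs_max_sub_max_le_max 0 (min 1 (x i)) 0 (min 1 (y i))
    simpa using this
  have h2 : |min 1 (x i) - min 1 (y i)| ≤ |x i - y i| := by
    have := abs_min_sub_min_le_max 1 (x i) 1 (y i)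
    simpa using this
  exact h1.trans h2

theorem SCALE_ball {m : ℕ} {r : ℝ} (hr : 0 < r) (c v : Vec m) (hv : v ∈ Set.Icc (0 : Vec m) 1) :
    c + (2 * r) • (v - fun _ => 1 / 2) ∈ Metric.closedBall c r := by
  rw [Metric.mem_closedBall, dist_eq_norm, add_sub_cancel_left]
  refine (pi_norm_le_iff_of_nonneg hr.le).2 fun i => ?_
  rw [Pi.smul_apply, Pi.sub_apply, smul_eq_mul, Real.norm_eq_abs, abs_mul,
    abs_of_pos (by positivity : (0 : ℝ) < 2 * r)]
  have h1 := hv.1 i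
  have h2 := hv.2 i
  have h3 : |v i - 1 / 2| ≤ 1 / 2 := by
    rw [abs_le]
    constructor
    · have : (0 : ℝ) ≤ v i := h1
      linarith
    · have : v i ≤ (1 : ℝ) := h2
      linarith
  nlinarith

open Pointwise in
theorem con2_ball {m : ℕ} {a : Vec m → Vec m} {C α r : ℝ} {c : Vec m} (hr : 0 < r) (hC : 0 ≤ C)
    (hα : 0 < α) (hα1 : α ≤ 1) (hmα : (m : ℝ) - 1 < m * α)
    (ha : ∀ v ∈ Metric.closedBall c r, ∀ w ∈ Metric.closedBall c r, ‖a v - a w‖ ≤ C * ‖v - w‖ ^ α)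
    (t : Fin (m + 1) → ℝ) (ht : Function.Injective t) :
    ∃ i, volume ((fun v => a v + t i • v) '' Metric.closedBall c r) ≠ 0 := by
  have h2r : 0 < 2 * r := by positivity
  set φ : Vec m → Vec m := fun v => c + (2 * r) • (v - fun _ => 1 / 2) with hφ
  set b : Vec m → Vec m := fun x => (2 * r)⁻¹ • a (φ (SCALE_cl x)) with hb
  have hbH : ∀ v w, ‖b v - b w‖ ≤ ((2 * r)⁻¹ * C * (2 * r) ^ α) * ‖v - w‖ ^ α := by
    intro v w
    have h1 : ‖φ (SCALE_cl v) - φ (SCALE_cl w)‖ ≤ (2 * r) * ‖v - w‖ := by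
      have e : φ (SCALE_cl v) - φ (SCALE_cl w) = (2 * r) • (SCALE_cl v - SCALE_cl w) := by
        simp only [hφ]
        rw [add_sub_add_left_eq_sub, ← smul_sub, sub_sub_sub_cancel_right]
      rw [e, norm_smul, Real.norm_eq_abs, abs_of_pos h2r]
      exact mul_le_mul_of_nonneg_left (SCALE_cl_lip v w) h2r.le
    have h2 := ha _ (SCALE_ball hr c _ (SCALE_cl_mem v)) _ (SCALE_ball hr c _ (SCALE_cl_mem w))
    simp only [hb]
    rw [← smul_sub, norm_smul, Real.norm_eq_abs, abs_of_pos (inv_pos.2 h2r)]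
    calc (2 * r)⁻¹ * ‖a (φ (SCALE_cl v)) - a (φ (SCALE_cl w))‖
        ≤ (2 * r)⁻¹ * (C * ‖φ (SCALE_cl v) - φ (SCALE_cl w)‖ ^ α) := by
          exact mul_le_mul_of_nonneg_left h2 (inv_pos.2 h2r).le
      _ ≤ (2 * r)⁻¹ * (C * ((2 * r) * ‖v - w‖) ^ α) := by
          gcongr
      _ = ((2 * r)⁻¹ * C * (2 * r) ^ α) * ‖v - w‖ ^ α := by
          rw [Real.mul_rpow h2r.le (norm_nonneg _)]; ring
  obtain ⟨i, hi⟩ := con2 (a := b) (by positivity) hα hα1 hmα hbH t ht
  refine ⟨i, fun h0 => hi ?_⟩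
  set S := (fun v => a v + t i • v) '' Metric.closedBall c r with hS
  set k : Vec m := t i • ((fun _ => 1 / 2) - (2 * r)⁻¹ • c) with hk
  have hsub : (fun v => b v + t i • v) '' Set.Icc 0 1 ⊆
      (fun z => z + -k) ⁻¹' ((2 * r)⁻¹ • S) := by
    rintro _ ⟨v, hv, rfl⟩
    refine ⟨a (φ v) + t i • φ v, ⟨φ v, SCALE_ball hr c v hv, rfl⟩, ?_⟩
    simp only [hb, hk, SCALE_cl_eq hv]
    rw [smul_add, smul_comm (2 * r)⁻¹ (t i)]
    have e : (2 * r)⁻¹ • φ v = v - ((fun _ => 1 / 2) - (2 * r)⁻¹ • c) := by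
      simp only [hφ]
      rw [smul_add, smul_smul, inv_mul_cancel₀ h2r.ne', one_smul]
      abel
    rw [e, smul_sub]
    abel
  refine measure_mono_null hsub ?_
  rw [measure_preimage_add_right, Measure.addHaar_smul, h0, mul_zero]

end Vale.Agent.P127H
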