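import Vale.Agent.P127H.Defs

/-! Modules CUT, VOL. -/

open MeasureTheory

namespace Vale.Agent.P127H

theorem CUT_st : ∃ C : ℝ, 0 ≤ C ∧ ∀ x, |deriv Real.smoothTransition x| ≤ C := by
  have hc : Continuous (deriv Real.smoothTransition) :=
    (Real.smoothTransition.contDiff (n := 1)).continuous_deriv le_rfl
  obtain ⟨C, hC⟩ := (isCompact_Icc (a := (0 : ℝ)) (b := 1)).exists_bound_of_continuousOn
    hc.continuousOn
  refine ⟨max C 0, le_max_right _ _, fun x => ?_⟩
  by_cases hx : x ∈ Set.Icc (0 : ℝ) 1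
  · have := hC x hx
    rw [Real.norm_eq_abs] at this
    exact this.trans (le_max_left _ _)
  · have hd : deriv Real.smoothTransition x = 0 := by
      rw [Set.mem_Icc, not_and_or, not_le, not_le] at hx
      rcases hx with hx | hx
      · have : Real.smoothTransition =ᶠ[nhds x] fun _ => (0 : ℝ) := by
          filter_upwards [Iio_mem_nhds hx] with y hy
          exact Real.smoothTransition.zero_of_nonpos (le_of_lt hy)
        rw [this.deriv_eq]
        exact deriv_const x (0 : ℝ)
      · have : Real.smoothTransition =ᶠ[nhds x] fun _ => (1 : ℝ) := by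
          filter_upwards [Ioi_mem_nhds hx] with y hy
          exact Real.smoothTransition.one_of_one_le (le_of_lt hy)
        rw [this.deriv_eq]
        exact deriv_const x (1 : ℝ)
    rw [hd, abs_zero]
    exact le_max_right _ _

/-- one-dimensional cutoff -/
noncomputable def CUT_h (s s' x : ℝ) : ℝ :=
  Real.smoothTransition ((x - s) / (s' - s)) * Real.smoothTransition ((1 - s - x) / (s' - s))

theorem CUT_h_deriv (s s' x : ℝ) : HasDerivAt (CUT_h s s')
    (deriv Real.smoothTransition ((x - s) / (s' - s)) * (1 / (s' - s)) *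
      Real.smoothTransition ((1 - s - x) / (s' - s)) +
    Real.smoothTransition ((x - s) / (s' - s)) *
      (deriv Real.smoothTransition ((1 - s - x) / (s' - s)) * (-1 / (s' - s)))) x := by
  have hd : ∀ y, HasDerivAt Real.smoothTransition (deriv Real.smoothTransition y) y := fun y =>
    ((Real.smoothTransition.contDiff (n := 1)).differentiable one_ne_zero y).hasDerivAt
  have h1 : HasDerivAt (fun x : ℝ => (x - s) / (s' - s)) (1 / (s' - s)) x :=
    ((hasDerivAt_id x).sub_const s).div_const _
  have h2 : HasDerivAt (fun x : ℝ => (1 - s - x) / (s' - s)) (-1 / (s' - s)) x :=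
    ((hasDerivAt_id x).const_sub (1 - s)).div_const _
  exact ((hd _).comp x h1).mul ((hd _).comp x h2)

theorem CUT_h_mem (s s' x : ℝ) : 0 ≤ CUT_h s s' x ∧ CUT_h s s' x ≤ 1 := by
  unfold CUT_h
  have a := Real.smoothTransition.nonneg ((x - s) / (s' - s))
  have b := Real.smoothTransition.nonneg ((1 - s - x) / (s' - s))
  have c := Real.smoothTransition.le_one ((x - s) / (s' - s))
  have d := Real.smoothTransition.le_one ((1 - s - x) / (s' - s))
  exact ⟨mul_nonneg a b, mul_le_one₀ c b d⟩

theorem CUT_h_contDiff (s s' : ℝ) : ContDiff ℝ 1 (CUT_h s s') := by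
  have h0 := Real.smoothTransition.contDiff (n := 1)
  unfold CUT_h
  exact (h0.comp ((contDiff_id.sub contDiff_const).div_const _)).mul
    (h0.comp ((contDiff_const.sub contDiff_id).div_const _))

/-- CUT.  Hint: `θ v = ∏ i, h (v i)`, `h` a one-dimensional `C¹` cutoff built from `Real.smoothTransition`
(its derivative is bounded: continuous, constant outside `[0,1]`). -/
theorem exists_cut (m : ℕ) : ∃ M : ℝ, 0 ≤ M ∧ ∀ s s' : ℝ, s < s' →
    ∃ θ : Vec m → ℝ, ContDiff ℝ 1 θ ∧ (∀ v, 0 ≤ θ v ∧ θ v ≤ 1) ∧ (∀ v ∈ box m s', θ v = 1) ∧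
      (∀ v, v ∉ box m s → θ v = 0) ∧ ∀ v, ‖fderiv ℝ θ v‖ ≤ M / (s' - s) := by
  obtain ⟨C, hC0, hC⟩ := CUT_st
  refine ⟨m * (2 * C), by positivity, fun s s' hs => ?_⟩
  have hd : 0 < s' - s := by linarith
  refine ⟨fun v => ∏ i, CUT_h s s' (v i), ?_, ?_, ?_, ?_, ?_⟩
  · exact contDiff_prod fun i _ => (CUT_h_contDiff s s').comp (contDiff_apply ℝ ℝ i)
  · exact fun v => ⟨Finset.prod_nonneg fun i _ => (CUT_h_mem s s' _).1,
      Finset.prod_le_one (fun i _ => (CUT_h_mem s s' _).1) fun i _ => (CUT_h_mem s s' _).2⟩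
  · intro v hv
    refine Finset.prod_eq_one fun i _ => ?_
    have h1 := hv i (Set.mem_univ i)
    unfold CUT_h
    rw [Real.smoothTransition.one_of_one_le, Real.smoothTransition.one_of_one_le, one_mul]
    · rw [le_div_iff₀ hd]
      linarith [h1.2]
    · rw [le_div_iff₀ hd]
      linarith [h1.1]
  · intro v hv
    have h1 : ∃ i, v i ∉ Set.Ioo s (1 - s) := by
      by_contra hcon
      push Not at hcon
      exact hv fun i _ => hcon i
    obtain ⟨i, hi⟩ := h1
    refine Finset.prod_eq_zero (Finset.mem_univ i) ?_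
    unfold CUT_h
    rw [Set.mem_Ioo, not_and_or, not_lt, not_lt] at hi
    rcases hi with hi | hi
    · rw [Real.smoothTransition.zero_of_nonpos, zero_mul]
      exact div_nonpos_of_nonpos_of_nonneg (by linarith) hd.le
    · rw [Real.smoothTransition.zero_of_nonpos (x := (1 - s - v i) / (s' - s)), mul_zero]
      exact div_nonpos_of_nonpos_of_nonneg (by linarith) hd.le
  · intro v
    set D : ℝ → ℝ := deriv (CUT_h s s') with hD
    have hDb : ∀ x, |D x| ≤ 2 * C / (s' - s) := by
      intro x
      rw [hD, (CUT_h_deriv s s' x).deriv]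
      have a := Real.smoothTransition.nonneg ((x - s) / (s' - s))
      have b := Real.smoothTransition.nonneg ((1 - s - x) / (s' - s))
      have c := Real.smoothTransition.le_one ((x - s) / (s' - s))
      have d := Real.smoothTransition.le_one ((1 - s - x) / (s' - s))
      have e1 := hC ((x - s) / (s' - s))
      have e2 := hC ((1 - s - x) / (s' - s))
      refine (abs_add_le _ _).trans ?_
      rw [abs_mul, abs_mul, abs_mul, abs_mul, abs_of_nonneg a, abs_of_nonneg b, abs_div, abs_div,
        abs_neg, abs_one, abs_of_pos hd]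
      have f1 : |deriv Real.smoothTransition ((x - s) / (s' - s))| * (1 / (s' - s)) *
          Real.smoothTransition ((1 - s - x) / (s' - s)) ≤ C * (1 / (s' - s)) * 1 := by
        gcongr
      have f2 : Real.smoothTransition ((x - s) / (s' - s)) *
          (|deriv Real.smoothTransition ((1 - s - x) / (s' - s))| * (1 / (s' - s))) ≤
          1 * (C * (1 / (s' - s))) := by
        gcongr
      calc _ ≤ C * (1 / (s' - s)) * 1 + 1 * (C * (1 / (s' - s))) := add_le_add f1 f2
        _ = 2 * C / (s' - s) := by ring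
    have hder : ∀ i, HasFDerivAt (fun v : Vec m => CUT_h s s' (v i))
        (D (v i) • ContinuousLinearMap.proj (R := ℝ) i) v := by
      intro i
      have h1 : HasDerivAt (CUT_h s s') (D (v i)) (v i) :=
        ((CUT_h_contDiff s s').differentiable one_ne_zero (v i)).hasDerivAt
      exact h1.comp_hasFDerivAt v (ContinuousLinearMap.proj (R := ℝ) (φ := fun _ : Fin m => ℝ)
        i).hasFDerivAt
    have h2 := HasFDerivAt.finset_prod (u := Finset.univ) fun i _ => hder i
    rw [h2.fderiv]
    refine (norm_sum_le _ _).trans ?_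
    have h3 : ∀ i ∈ (Finset.univ : Finset (Fin m)),
        ‖(∏ j ∈ Finset.univ.erase i, CUT_h s s' (v j)) •
          (D (v i) • ContinuousLinearMap.proj (R := ℝ) (φ := fun _ : Fin m => ℝ) i)‖ ≤
          2 * C / (s' - s) := by
      intro i _
      rw [norm_smul, norm_smul, Real.norm_eq_abs, Real.norm_eq_abs]
      have a1 : |∏ j ∈ Finset.univ.erase i, CUT_h s s' (v j)| ≤ 1 := by
        rw [abs_of_nonneg (Finset.prod_nonneg fun i _ => (CUT_h_mem s s' _).1)]
        exact Finset.prod_le_one (fun i _ => (CUT_h_mem s s' _).1) fun i _ => (CUT_h_mem s s' _).2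
      have a2 : ‖ContinuousLinearMap.proj (R := ℝ) (φ := fun _ : Fin m => ℝ) i‖ ≤ 1 := by
        refine ContinuousLinearMap.opNorm_le_bound _ zero_le_one fun x => ?_
        rw [one_mul]
        exact norm_le_pi_norm x i
      have a3 := hDb (v i)
      have a4 : 0 ≤ 2 * C / (s' - s) := by positivity
      calc _ ≤ 1 * (2 * C / (s' - s) * 1) := by gcongr
        _ = _ := by ring
    refine (Finset.sum_le_sum h3).trans ?_
    rw [Finset.sum_const, Finset.card_univ, Fintype.card_fin, nsmul_eq_mul]
    apply le_of_eq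
    ring

theorem VOL_pow (m : ℕ) {x y : ℝ} (hy : 0 ≤ y) (hyx : y ≤ x) (hx : x ≤ 1) :
    x ^ m - y ^ m ≤ m * (x - y) := by
  induction m with
  | zero => simp
  | succ m ih =>
    have h1 : y ^ m ≤ 1 := pow_le_one₀ hy (hyx.trans hx)
    have h2 : 0 ≤ y ^ m := pow_nonneg hy m
    have h3 : y ^ m ≤ x ^ m := pow_le_pow_left₀ hy hyx m
    have h4 : x ^ (m + 1) - y ^ (m + 1) = x * (x ^ m - y ^ m) + (x - y) * y ^ m := by ring
    rw [h4]
    push_cast
    have h5 : x * (x ^ m - y ^ m) ≤ 1 * (x ^ m - y ^ m) :=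
      mul_le_mul_of_nonneg_right hx (by linarith)
    have h6 : (x - y) * y ^ m ≤ (x - y) * 1 := mul_le_mul_of_nonneg_left h1 (by linarith)
    linarith

theorem VOL_box (m : ℕ) (s : ℝ) : volume (box m s) = ENNReal.ofReal (1 - s - s) ^ m := by
  unfold box
  rw [Real.volume_pi_Ioo, Finset.prod_const, Finset.card_univ, Fintype.card_fin]

theorem box_meas (m : ℕ) (s : ℝ) : MeasurableSet (box m s) ∧ IsOpen (box m s) := by
  have h : IsOpen (box m s) := isOpen_set_pi Set.finite_univ fun _ _ => isOpen_Ioo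
  exact ⟨h.measurableSet, h⟩

theorem box_bdd (m : ℕ) (s : ℝ) : Bornology.IsBounded (box m s) :=
  Bornology.IsBounded.pi fun _ => Metric.isBounded_Ioo _ _

theorem box_anti {m : ℕ} {s s' : ℝ} (h : s ≤ s') : box m s' ⊆ box m s := by
  intro v hv i _
  have h1 := hv i (Set.mem_univ i)
  exact ⟨lt_of_le_of_lt h h1.1, by linarith [h1.2]⟩

/-- VOL.  Hint: `Real.volume_pi_Ioo`, `x^m - y^m ≤ m (x - y)` for `0 ≤ y ≤ x ≤ 1`. -/
theorem vol_layer {m : ℕ} {s s' : ℝ} (hs : 0 ≤ s) (hss : s ≤ s') (hs' : s' ≤ 1 / 2) :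
    (volume (box m s \ box m s')).toReal ≤ 2 * m * (s' - s) := by
  have hfin : ∀ s, volume (box m s) ≠ ⊤ := fun s => (box_bdd m s).measure_lt_top.ne
  rw [measure_diff (box_anti hss) (box_meas m s').1.nullMeasurableSet (hfin s'),
    ENNReal.toReal_sub_of_le (measure_mono (box_anti hss)) (hfin s), VOL_box, VOL_box,
    ENNReal.toReal_pow, ENNReal.toReal_pow, ENNReal.toReal_ofReal (by linarith),
    ENNReal.toReal_ofReal (by linarith)]
  have := VOL_pow m (x := 1 - s - s) (y := 1 - s' - s') (by linarith) (by linarith) (by linarith)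
  linarith

theorem vol_box0 (m : ℕ) : volume (box m 0) = 1 := by
  rw [VOL_box]
  simp

end Vale.Agent.P127H
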