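import Mathlib

/-!
# P127: Kakeya sets with Hölder continuous choice of the segments (helper92)

THEOREM.  `K ⊆ ℝⁿ` contains, for the unit vectors `e` near `e₀`, the segment `a_e + [0,1] e`, where
`e ↦ a_e` is `α`-Hölder with `α > (n-2)/(n-1)`.  Then `K` has positive Lebesgue measure.

Put `m = n - 1`.  In a chart the lines are `t ↦ (a v + t v, t)`, `v` in a cube of `ℝᵐ`, `m α > m - 1`.
MAIN PROPOSITION: if `a : ℝᵐ → ℝᵐ` is `α`-Hölder, `m α > m - 1`, then `{a v + t v : v ∈ [0,1]ᵐ}` is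
Lebesgue-null for at most `m` values of `t`.

Proof.  `J f t v = det (Df(v) + t)`, `Phi f t s η = ∫_{(s,1-s)^m} η (f v + t v) J f t v dv`.
* (NL) if `f = q` outside `D` (bounded) then `∫_D η (f v + t v) J f t v = ∫_D η (q v + t v) J q t v`:
  for `t = λ` large both maps are bijections of `ℝᵐ` with the same image of `D` (change of variables);
  for `η` a polynomial both sides are polynomials in `λ`, so equality for all `λ`; Stone-Weierstrass.
* (STEP) `b, b'` mollifications at scale `ε`: glue `q = b + θ (b' - b)`; the layer has volume `≲ ε`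
  and `|J| ≲ ε^(m(α-1))` there, so `|Phi b t s η - Phi b' t (s + ε/4) η| ≤ C ε^(mα - m + 1)`.
* (TEL) sum over dyadic scales.
* (CON1) if `F_t([0,1]^m)` is null, take `η = 1` near this compact set, decreasing to its indicator:
  `|Phi b_J t 0 1| ≤ 2 C' ε_J^β`.
* (CON2) `∑ w_i det (A + t_i) = 1` for `m + 1` distinct `t_i` (Lagrange), so `1 = ∑ w_i Phi b_J t_i 0 1 → 0`.
-/

open MeasureTheory

namespace Vale.Agent.P127H

/-- `ℝᵐ` with the sup norm -/
abbrev Vec (m : ℕ) := Fin m → ℝ

/-- Jacobian determinant of `v ↦ f v + t v` -/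
noncomputable def J {m : ℕ} (f : Vec m → Vec m) (t : ℝ) (v : Vec m) : ℝ :=
  (fderiv ℝ f v + t • ContinuousLinearMap.id ℝ (Vec m)).det

/-- open cube `(s, 1-s)^m` -/
def box (m : ℕ) (s : ℝ) : Set (Vec m) := Set.pi Set.univ fun _ => Set.Ioo s (1 - s)

/-- the functional -/
noncomputable def Phi {m : ℕ} (f : Vec m → Vec m) (t s : ℝ) (η : Vec m → ℝ) : ℝ :=
  ∫ v in box m s, η (f v + t • v) * J f t v

/-- continuous, polynomial of bounded degree on every line -/
def PolyLike {m : ℕ} (g : Vec m → ℝ) : Prop :=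
  Continuous g ∧ ∃ N : ℕ, ∀ x y : Vec m, ∃ p : Polynomial ℝ, p.natDegree ≤ N ∧
    ∀ l : ℝ, g (x + l • y) = p.eval l

end Vale.Agent.P127H
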