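import Vale.Agent.P127H.Defs

/-! Modules DETP, LAG, DETB. -/

open MeasureTheory

namespace Vale.Agent.P127H

/-- DETP.  Hint: characteristic polynomial of `-A` (`Matrix.charpoly`, `LinearMap.toMatrix'`,
`Matrix.eval_charpoly`/`Matrix.eval_det`...). -/
theorem det_poly {m : ℕ} (A : Vec m →L[ℝ] Vec m) : ∃ p : Polynomial ℝ, p.Monic ∧ p.natDegree = m ∧
    ∀ l : ℝ, (A + l • ContinuousLinearMap.id ℝ (Vec m)).det = p.eval l := by
  refine ⟨(-(LinearMap.toMatrix' (A : Vec m →ₗ[ℝ] Vec m))).charpoly, Matrix.charpoly_monic _, ?_,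
    fun l => ?_⟩
  · rw [Matrix.charpoly_natDegree_eq_dim, Fintype.card_fin]
  · rw [Matrix.eval_charpoly, sub_neg_eq_add]
    have h1 : (A + l • ContinuousLinearMap.id ℝ (Vec m)).det =
        LinearMap.det ((A : Vec m →ₗ[ℝ] Vec m) + l • LinearMap.id) := rfl
    rw [h1, ← LinearMap.det_toMatrix', map_add, map_smul, LinearMap.toMatrix'_id, add_comm,
      Matrix.smul_one_eq_diagonal]
    rfl

/-- LAG.  Lagrange interpolation at `N + 1` nodes `> L` (`Lagrange.eq_interpolate`, `Lagrange.interpolate_apply`). -/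
theorem extrap (N : ℕ) (t L : ℝ) : ∃ x w : Fin (N + 1) → ℝ, (∀ i, L < x i) ∧
    ∀ p : Polynomial ℝ, p.natDegree ≤ N → p.eval t = ∑ i, w i * p.eval (x i) := by
  set x : Fin (N + 1) → ℝ := fun i => L + 1 + (i : ℕ) with hx
  have hinj : Function.Injective x := by
    intro i j hij
    simp only [hx] at hij
    have : ((i : ℕ) : ℝ) = ((j : ℕ) : ℝ) := by linarith
    exact Fin.ext (by exact_mod_cast this)
  refine ⟨x, fun i => (Lagrange.basis Finset.univ x i).eval t, ?_, ?_⟩
  · intro i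
    have : (0 : ℝ) ≤ ((i : ℕ) : ℝ) := Nat.cast_nonneg _
    simp only [hx]; linarith
  · intro p hp
    have hdeg : p.degree < (Finset.univ : Finset (Fin (N + 1))).card := by
      rw [Finset.card_univ, Fintype.card_fin]
      refine lt_of_le_of_lt Polynomial.degree_le_natDegree ?_
      exact_mod_cast Nat.lt_succ_of_le hp
    have h := Lagrange.eq_interpolate (f := p) (s := Finset.univ) (v := x) hinj.injOn hdeg
    have h2 := congrArg (Polynomial.eval t) h
    rw [h2, Lagrange.interpolate_apply, Polynomial.eval_finsetSum]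
    refine Finset.sum_congr rfl fun i _ => ?_
    rw [Polynomial.eval_mul, Polynomial.eval_C]
    ring

/-- LAG2.  The leading coefficient by Lagrange interpolation. -/
theorem lead_coeff {m : ℕ} (t : Fin (m + 1) → ℝ) (ht : Function.Injective t) :
    ∃ w : Fin (m + 1) → ℝ, ∀ p : Polynomial ℝ, p.Monic → p.natDegree = m →
      ∑ i, w i * p.eval (t i) = 1 := by
  refine ⟨fun i => (∏ j ∈ Finset.univ.erase i, (t i - t j))⁻¹, ?_⟩
  intro p hp hm
  have h := Lagrange.leadingCoeff_eq_sum (s := Finset.univ) (v := t) (P := p) ht.injOn (by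
    rw [Finset.card_univ, Fintype.card_fin, Polynomial.degree_eq_natDegree hp.ne_zero, hm]
    norm_cast)
  rw [hp.leadingCoeff] at h
  rw [h]
  refine Finset.sum_congr rfl fun i _ => ?_
  rw [div_eq_mul_inv, mul_comm]

/-- DETB.  Hint: entries of the matrix are `≤ ‖A‖` (sup norm), Leibniz formula, `M = m!`
(or `Matrix.det_le`). -/
theorem det_bound (m : ℕ) : ∃ M : ℝ, 0 ≤ M ∧ ∀ A : Vec m →L[ℝ] Vec m, |A.det| ≤ M * ‖A‖ ^ m := by
  refine ⟨(Nat.factorial m : ℝ), Nat.cast_nonneg _, fun A => ?_⟩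
  have h1 : A.det = (LinearMap.toMatrix' (A : Vec m →ₗ[ℝ] Vec m)).det := by
    rw [LinearMap.det_toMatrix']
  have h2 : ∀ i j, AbsoluteValue.abs (LinearMap.toMatrix' (A : Vec m →ₗ[ℝ] Vec m) i j) ≤ ‖A‖ := by
    intro i j
    rw [LinearMap.toMatrix'_apply]
    show ‖A (Pi.single j 1) i‖ ≤ ‖A‖
    have h3 : ‖(Pi.single j 1 : Vec m)‖ ≤ 1 := by
      rw [pi_norm_le_iff_of_nonneg zero_le_one]
      intro k
      rw [Pi.single_apply]
      split_ifs <;> simp
    calc ‖A (Pi.single j 1) i‖ ≤ ‖A (Pi.single j 1)‖ := norm_le_pi_norm _ i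
      _ ≤ ‖A‖ * ‖(Pi.single j 1 : Vec m)‖ := A.le_opNorm _
      _ ≤ ‖A‖ * 1 := mul_le_mul_of_nonneg_left h3 (norm_nonneg _)
      _ = ‖A‖ := mul_one _
  have h4 := Matrix.det_le h2
  rw [Fintype.card_fin, nsmul_eq_mul, ← h1] at h4
  exact h4

/-- CDET.  The Jacobian of a `C¹` map is continuous. -/
theorem continuous_J {m : ℕ} {f : Vec m → Vec m} (hf : ContDiff ℝ 1 f) (t : ℝ) :
    Continuous (J f t) := by
  have h1 : Continuous fun v => fderiv ℝ f v + t • ContinuousLinearMap.id ℝ (Vec m) :=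
    (hf.continuous_fderiv one_ne_zero).add continuous_const
  exact ContinuousLinearMap.continuous_det.comp h1

end Vale.Agent.P127H
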