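import Vale.Agent.P127H.Final

/-! Modules FINA, FINB, DIMH (hints at each theorem). -/

open MeasureTheory Metric Set

namespace Vale.Agent.P127H

/-- coordinates `ℝ^(m+1) = ℝ^m × ℝ` -/
theorem FINA_coord (m : ℕ) : ∃ e : EuclideanSpace ℝ (Fin (m + 1)) ≃ᵐ Vec m × ℝ,
    MeasurePreserving e volume volume ∧ ∀ x, e x = (fun i => x i.castSucc, x (Fin.last m)) := by
  refine ⟨(MeasurableEquiv.toLp 2 (Fin (m + 1) → ℝ)).symm.trans
    ((MeasurableEquiv.piFinSuccAbove (fun _ => ℝ) (Fin.last m)).trans MeasurableEquiv.prodComm),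
    ?_, ?_⟩
  · have h1 := EuclideanSpace.volume_preserving_symm_measurableEquiv_toLp (Fin (m + 1))
    have h2 := volume_preserving_piFinSuccAbove (fun _ : Fin (m + 1) => ℝ) (Fin.last m)
    have h3 : MeasurePreserving (Prod.swap : ℝ × (Fin m → ℝ) → (Fin m → ℝ) × ℝ) volume volume :=
      Measure.measurePreserving_swap
    exact (h3.comp h2).comp h1
  · intro x
    simp only [MeasurableEquiv.trans_apply]
    refine Prod.ext ?_ ?_
    · funext i
      simp [MeasurableEquiv.piFinSuccAbove, MeasurableEquiv.prodComm, Fin.init]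
    · simp [MeasurableEquiv.piFinSuccAbove, MeasurableEquiv.prodComm]

theorem FINA_small (m : ℕ) {C D α r : ℝ} (hr : 0 < r) (hα : 0 < α) :
    ∃ ρ : ℝ, 0 < ρ ∧ ρ < 1 / 2 ∧ D * ρ < r ∧ C * (D * ρ) ^ α < 1 / 8 ∧ m * ρ ^ 2 < 15 / 49 := by
  have h0 : Filter.Tendsto (fun ρ : ℝ => ρ) (nhdsWithin 0 (Ioi 0)) (nhds 0) :=
    tendsto_nhdsWithin_of_tendsto_nhds Filter.tendsto_id
  have h1 : Filter.Tendsto (fun ρ : ℝ => D * ρ) (nhdsWithin 0 (Ioi 0)) (nhds 0) := by
    simpa using h0.const_mul D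
  have h2 : Filter.Tendsto (fun ρ : ℝ => C * (D * ρ) ^ α) (nhdsWithin 0 (Ioi 0)) (nhds 0) := by
    have := (h1.rpow_const (p := α) (Or.inr hα.le)).const_mul C
    simpa [Real.zero_rpow hα.ne'] using this
  have h3 : Filter.Tendsto (fun ρ : ℝ => (m : ℝ) * ρ ^ 2) (nhdsWithin 0 (Ioi 0)) (nhds 0) := by
    simpa using (h0.pow 2).const_mul (m : ℝ)
  have e := (((h0.eventually (gt_mem_nhds (show (0 : ℝ) < 1 / 2 by norm_num))).and
    (h1.eventually (gt_mem_nhds hr))).and
    (h2.eventually (gt_mem_nhds (show (0 : ℝ) < 1 / 8 by norm_num)))).and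
    (h3.eventually (gt_mem_nhds (show (0 : ℝ) < 15 / 49 by norm_num)))
  obtain ⟨ρ, ⟨⟨⟨a1, a2⟩, a3⟩, a4⟩, a5⟩ := (e.and self_mem_nhdsWithin).exists
  exact ⟨ρ, a5, a1, a2, a3, a4⟩

/-- FINA.  The theorem near the last basis vector.  Hints: `v ↦ dir v`, `a (dir v) = (A v, h v)`
(`A v = fun i => a (dir v) i.castSucc`, `h v = a (dir v) (Fin.last m)`), `b v = A v - h v • v`,
`ρ = √(1 + |v|²)`; for `t ∈ [h 0 + 1/8, h 0 + 3/4]` and `v` small, `s = ρ (t - h v) ∈ [0, 1]` and
`a (dir v) + s • dir v = (b v + t v, t)`.  `EuclideanSpace ℝ (Fin (m+1)) ≃ Vec m × ℝ`, `x ↦ (i ↦ x i.castSucc, x last)`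
preserves volume (`EuclideanSpace.volume_preserving_...`, `volume_preserving_piFinSuccAbove _ (Fin.last m)`,
`Measure.volume_preserving_prodComm`/`measurePreserving_swap`).  Use `chart` for the image of `K`. -/
theorem fina {m : ℕ} {K : Set (EuclideanSpace ℝ (Fin (m + 1)))}
    {a : EuclideanSpace ℝ (Fin (m + 1)) → EuclideanSpace ℝ (Fin (m + 1))} {C α r : ℝ} (hr : 0 < r)
    (hC : 0 ≤ C) (hα : 0 < α) (hα1 : α ≤ 1) (hmα : (m : ℝ) - 1 < m * α)
    (ha : ∀ e e', ‖e‖ = 1 → ‖e'‖ = 1 → ‖e - EuclideanSpace.single (Fin.last m) 1‖ < r →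
      ‖e' - EuclideanSpace.single (Fin.last m) 1‖ < r → ‖a e - a e'‖ ≤ C * ‖e - e'‖ ^ α)
    (hK : ∀ e, ‖e‖ = 1 → ‖e - EuclideanSpace.single (Fin.last m) 1‖ < r →
      ∀ t ∈ Icc (0 : ℝ) 1, a e + t • e ∈ K) :
    volume K ≠ 0 := by
  obtain ⟨D, hD, hd1, hd0, hdL⟩ := dir_props m
  obtain ⟨r1, hr1, hr2, hr3, hr4, hr5⟩ := FINA_small m (C := C) (D := D) hr hα
  obtain ⟨e, he, hex⟩ := FINA_coord m
  set A : Vec m → Vec m := fun v i => a (dir v) i.castSucc with hA
  set h : Vec m → ℝ := fun v => a (dir v) (Fin.last m) with hh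
  set b : Vec m → Vec m := fun v => A v - h v • v with hb
  have h00 : (0 : Vec m) ∈ closedBall (0 : Vec m) r1 := by simp [hr1.le]
  have hball : ∀ v ∈ closedBall (0 : Vec m) r1, v ∈ closedBall (0 : Vec m) 1 := by
    intro v hv
    exact closedBall_subset_closedBall (by linarith) hv
  have hnv : ∀ v ∈ closedBall (0 : Vec m) r1, ‖v‖ ≤ r1 := by
    intro v hv; simpa using hv
  have hnear : ∀ v ∈ closedBall (0 : Vec m) r1,
      ‖dir v - EuclideanSpace.single (Fin.last m) 1‖ < r := by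
    intro v hv
    rw [← hd0]
    refine lt_of_le_of_lt (hdL v (hball v hv) 0 (hball 0 h00)) ?_
    rw [sub_zero]
    exact lt_of_le_of_lt (mul_le_mul_of_nonneg_left (hnv v hv) hD) hr3
  have haa : ∀ v ∈ closedBall (0 : Vec m) r1, ∀ w ∈ closedBall (0 : Vec m) r1,
      ‖a (dir v) - a (dir w)‖ ≤ C * (D * ‖v - w‖) ^ α := by
    intro v hv w hw
    refine (ha _ _ (hd1 v) (hd1 w) (hnear v hv) (hnear w hw)).trans ?_
    exact mul_le_mul_of_nonneg_left (Real.rpow_le_rpow (norm_nonneg _)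
      (hdL v (hball v hv) w (hball w hw)) hα.le) hC
  have hcoord : ∀ v ∈ closedBall (0 : Vec m) r1, ∀ w ∈ closedBall (0 : Vec m) r1,
      ∀ i, |a (dir v) i - a (dir w) i| ≤ C * (D * ‖v - w‖) ^ α := by
    intro v hv w hw i
    have := PiLp.norm_apply_le (a (dir v) - a (dir w)) i
    rw [PiLp.sub_apply, Real.norm_eq_abs] at this
    exact this.trans (haa v hv w hw)
  have hh0 : ∀ v ∈ closedBall (0 : Vec m) r1, |h v - h 0| < 1 / 8 := by
    intro v hv
    refine lt_of_le_of_lt (hcoord v hv 0 h00 (Fin.last m)) ?_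
    rw [sub_zero]
    refine lt_of_le_of_lt (mul_le_mul_of_nonneg_left (Real.rpow_le_rpow
      (mul_nonneg hD (norm_nonneg _)) (mul_le_mul_of_nonneg_left (hnv v hv) hD) hα.le) hC) hr4
  intro hK0
  refine chart (b := b) (C := 2 * (C * D ^ α) + |h 0| + 1) (α := α) (r := r1)
    (t0 := h 0 + 1 / 8) (t1 := h 0 + 3 / 4)
    (K := e.symm ⁻¹' K) hr1 ?_ hα hα1 hmα (by linarith) ?_ ?_ ?_
  · have := Real.rpow_nonneg hD α
    positivity
  · intro v hv w hw
    have hvw1 : ‖v - w‖ ≤ 1 := by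
      refine (norm_sub_le _ _).trans ?_
      have := hnv v hv
      have := hnv w hw
      linarith
    have hle : ‖v - w‖ ≤ ‖v - w‖ ^ α := by
      rcases (norm_nonneg (v - w)).eq_or_lt with h0 | h0
      · rw [← h0, Real.zero_rpow hα.ne']
      · calc ‖v - w‖ = ‖v - w‖ ^ (1 : ℝ) := (Real.rpow_one _).symm
          _ ≤ ‖v - w‖ ^ α := Real.rpow_le_rpow_of_exponent_ge h0 hvw1 hα1
    have hpow : C * (D * ‖v - w‖) ^ α = C * D ^ α * ‖v - w‖ ^ α := by
      rw [Real.mul_rpow hD (norm_nonneg _)]; ring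
    have hpn : 0 ≤ ‖v - w‖ ^ α := Real.rpow_nonneg (norm_nonneg _) _
    have hcd : 0 ≤ C * D ^ α := mul_nonneg hC (Real.rpow_nonneg hD _)
    rw [pi_norm_le_iff_of_nonneg (by positivity)]
    intro i
    have e1 : (b v - b w) i = (A v i - A w i) - (h v - h w) * v i - h w * (v i - w i) := by
      simp only [hb, Pi.sub_apply, Pi.smul_apply, smul_eq_mul]; ring
    rw [e1, Real.norm_eq_abs]
    have hvi : |v i| ≤ 1 := by
      have := norm_le_pi_norm v i
      rw [Real.norm_eq_abs] at this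
      have := hnv v hv
      linarith
    have hvwi : |v i - w i| ≤ ‖v - w‖ := by
      have := norm_le_pi_norm (v - w) i
      rwa [Pi.sub_apply, Real.norm_eq_abs] at this
    have hA1 : |A v i - A w i| ≤ C * D ^ α * ‖v - w‖ ^ α := by
      rw [← hpow]; exact hcoord v hv w hw _
    have hH1 : |h v - h w| ≤ C * D ^ α * ‖v - w‖ ^ α := by
      rw [← hpow]; exact hcoord v hv w hw _
    have hhw : |h w| ≤ |h 0| + 1 := by
      have h1 := hh0 w hw
      have h2 : |h w| ≤ |h w - h 0| + |h 0| := by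
        calc |h w| = |(h w - h 0) + h 0| := by ring_nf
          _ ≤ _ := abs_add_le _ _
      linarith
    calc |A v i - A w i - (h v - h w) * v i - h w * (v i - w i)|
        ≤ |A v i - A w i| + |h v - h w| * |v i| + |h w| * |v i - w i| := by
          refine (abs_sub _ _).trans ?_
          rw [abs_mul (h w)]
          refine add_le_add ((abs_sub _ _).trans ?_) le_rfl
          rw [abs_mul]
      _ ≤ C * D ^ α * ‖v - w‖ ^ α + C * D ^ α * ‖v - w‖ ^ α * 1 + (|h 0| + 1) * ‖v - w‖ ^ α := by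
          refine add_le_add (add_le_add hA1 (mul_le_mul hH1 hvi (abs_nonneg _) (by positivity))) ?_
          exact mul_le_mul hhw (hvwi.trans hle) (abs_nonneg _) (by positivity)
      _ = (2 * (C * D ^ α) + |h 0| + 1) * ‖v - w‖ ^ α := by ring
  · intro v hv t ht
    have hh1 := abs_lt.1 (hh0 v hv)
    rw [mem_preimage]
    set ρ : ℝ := Real.sqrt (1 + ∑ i, v i ^ 2) with hρ
    have hS0 : 0 ≤ ∑ i, v i ^ 2 := Finset.sum_nonneg fun i _ => sq_nonneg _
    have hS : ∑ i, v i ^ 2 ≤ 15 / 49 := by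
      have : ∀ i ∈ Finset.univ, v i ^ 2 ≤ r1 ^ 2 := by
        intro i _
        have h1 := norm_le_pi_norm v i
        rw [Real.norm_eq_abs] at h1
        rw [← sq_abs (v i)]
        exact pow_le_pow_left₀ (abs_nonneg _) (h1.trans (hnv v hv)) 2
      have h2 := Finset.sum_le_sum this
      rw [Finset.sum_const, Finset.card_univ, Fintype.card_fin, nsmul_eq_mul] at h2
      linarith
    have hρpos : 0 < ρ := Real.sqrt_pos.2 (by linarith)
    have hρle : ρ ≤ 8 / 7 := by
      rw [hρ, show (8 / 7 : ℝ) = Real.sqrt ((8 / 7) ^ 2) by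
        rw [Real.sqrt_sq (by norm_num)]]
      exact Real.sqrt_le_sqrt (by norm_num; linarith)
    have hmem := hK (dir v) (hd1 v) (hnear v hv) (ρ * (t - h v)) ⟨by
      refine mul_nonneg hρpos.le ?_
      linarith [ht.1], by
      calc ρ * (t - h v) ≤ 8 / 7 * (7 / 8) := by
            refine mul_le_mul hρle ?_ ?_ (by norm_num)
            · linarith [ht.2]
            · linarith [ht.1]
        _ = 1 := by norm_num⟩
    have hdir : (ρ * (t - h v)) • dir v =
        (t - h v) • (WithLp.toLp 2 (Fin.snoc (α := fun _ => ℝ) v 1) :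
          EuclideanSpace ℝ (Fin (m + 1))) := by
      rw [dir, smul_smul]
      congr 1
      rw [← hρ]
      field_simp
    have heq : e.symm (b v + t • v, t) = a (dir v) + (ρ * (t - h v)) • dir v := by
      rw [MeasurableEquiv.symm_apply_eq, hex, hdir]
      refine Prod.ext ?_ ?_
      · funext i
        simp only [hb, hA, hh, Pi.add_apply, Pi.sub_apply, Pi.smul_apply, smul_eq_mul,
          PiLp.add_apply, PiLp.smul_apply, Fin.snoc_castSucc]
        ring
      · simp only [hh, PiLp.add_apply, PiLp.smul_apply, Fin.snoc_last, smul_eq_mul]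
        ring
    rw [heq]
    exact hmem
  · rw [(he.symm e).measure_preimage_equiv K]
    exact hK0

/-- FINB.  The same in any `(m+1)`-dimensional Euclidean space `V`, near any unit vector `e₀`.  Hint: an orthonormal
basis with last vector `e₀` (`Orthonormal.exists_orthonormalBasis_extension_of_card_eq`), its `repr` is a linear
isometry `V ≃ₗᵢ EuclideanSpace ℝ (Fin (m+1))`, which preserves volume (`LinearIsometryEquiv.measurePreserving`). -/
theorem finb {V : Type*} [NormedAddCommGroup V] [InnerProductSpace ℝ V] [FiniteDimensional ℝ V]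
    [MeasurableSpace V] [BorelSpace V] {m : ℕ} (hV : Module.finrank ℝ V = m + 1) {K : Set V}
    {a : V → V} {C α r : ℝ} (hr : 0 < r) {e₀ : V} (he₀ : ‖e₀‖ = 1)
    (hC : 0 ≤ C) (hα : 0 < α) (hα1 : α ≤ 1) (hmα : (m : ℝ) - 1 < m * α)
    (ha : ∀ e e', ‖e‖ = 1 → ‖e'‖ = 1 → ‖e - e₀‖ < r → ‖e' - e₀‖ < r →
      ‖a e - a e'‖ ≤ C * ‖e - e'‖ ^ α)
    (hK : ∀ e, ‖e‖ = 1 → ‖e - e₀‖ < r → ∀ t ∈ Icc (0 : ℝ) 1, a e + t • e ∈ K) :
    volume K ≠ 0 := by
  have hcard : Module.finrank ℝ V = Fintype.card (Fin (m + 1)) := by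
    rw [hV, Fintype.card_fin]
  have hon : Orthonormal ℝ (({Fin.last m} : Set (Fin (m + 1))).domRestrict (fun _ => e₀)) := by
    constructor
    · intro i
      exact he₀
    · intro i j hij
      exact absurd (Subsingleton.elim i j) hij
  obtain ⟨b, hb⟩ := Orthonormal.exists_orthonormalBasis_extension_of_card_eq hcard hon
  have hb1 : b (Fin.last m) = e₀ := hb _ (mem_singleton _)
  have hφ : b.repr e₀ = EuclideanSpace.single (Fin.last m) 1 := by
    rw [← hb1]
    exact b.repr_self (Fin.last m)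
  have hφs : b.repr.symm (EuclideanSpace.single (Fin.last m) 1) = e₀ := by
    rw [← hφ, LinearIsometryEquiv.symm_apply_apply]
  have hnorm : ∀ e, ‖b.repr.symm e - e₀‖ = ‖e - EuclideanSpace.single (Fin.last m) 1‖ := by
    intro e
    rw [← hφs, ← map_sub, LinearIsometryEquiv.norm_map]
  have hmain : volume (b.repr.symm ⁻¹' K) ≠ 0 := by
    refine fina (a := fun e => b.repr (a (b.repr.symm e))) hr hC hα hα1 hmα ?_ ?_
    · intro e e' he he' hd hd'
      have h1 := ha (b.repr.symm e) (b.repr.symm e')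
        (by rw [LinearIsometryEquiv.norm_map]; exact he)
        (by rw [LinearIsometryEquiv.norm_map]; exact he')
        (by rw [hnorm]; exact hd) (by rw [hnorm]; exact hd')
      rw [← map_sub, LinearIsometryEquiv.norm_map] at h1
      rw [← map_sub, LinearIsometryEquiv.norm_map]
      exact h1
    · intro e he hd t ht
      have h1 := hK (b.repr.symm e) (by rw [LinearIsometryEquiv.norm_map]; exact he)
        (by rw [hnorm]; exact hd) t ht
      rw [mem_preimage, map_add, map_smul, LinearIsometryEquiv.symm_apply_apply]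
      exact h1
  have hmp := b.repr.symm.measurePreserving
  intro h0
  apply hmain
  have h2 := hmp.measure_preimage_equiv (f := b.repr.symm.toHomeomorph.toMeasurableEquiv) K
  exact h2.trans h0

/-- DIMH.  Hint: `isAddHaarMeasure_hausdorffMeasure`, uniqueness of Haar measure
(`Measure.isAddHaarMeasure_eq_smul`), `le_dimH_of_hausdorffMeasure_ne_zero`. -/
theorem dimH_of_volume_ne_zero {V : Type*} [NormedAddCommGroup V] [InnerProductSpace ℝ V]
    [FiniteDimensional ℝ V] [MeasurableSpace V] [BorelSpace V] {K : Set V} (hK : volume K ≠ 0) :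
    (Module.finrank ℝ V : ENNReal) ≤ dimH K := by
  have h1 : (volume : Measure V) =
      Measure.addHaarScalarFactor (volume : Measure V) (μH[(Module.finrank ℝ V : ℝ)]) •
        (μH[(Module.finrank ℝ V : ℝ)] : Measure V) :=
    Measure.isAddLeftInvariant_eq_smul _ _
  have h2 : (μH[(Module.finrank ℝ V : ℝ)] : Measure V) K ≠ 0 := by
    intro h
    apply hK
    rw [h1, Measure.smul_apply, h, smul_zero]
  have h3 := le_dimH_of_hausdorffMeasure_ne_zero (s := K) (d := (Module.finrank ℝ V : NNReal)) (by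
    simpa using h2)
  simpa using h3

end Vale.Agent.P127H
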