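import Vale.Agent.P127H.FinA

/-! Module FINC: projections (helper92). -/

open MeasureTheory Metric Set

namespace Vale.Agent.P127H

/-- FINC.  Projection to a subspace `V ∋ e₀` of dimension `k + 1`.  Hint: `finb` in `V` for the image of `K` under
the orthogonal projection `V.orthogonalProjectionOnto` and `a' e = P (a e)`; then `dimH_of_volume_ne_zero` and
`LipschitzWith.dimH_image_le`. -/
theorem finc {n : ℕ} {K : Set (EuclideanSpace ℝ (Fin n))}
    {a : EuclideanSpace ℝ (Fin n) → EuclideanSpace ℝ (Fin n)} {C α r : ℝ} (hr : 0 < r)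
    {e₀ : EuclideanSpace ℝ (Fin n)} (he₀ : ‖e₀‖ = 1) (hC : 0 ≤ C) (hα : 0 < α) (hα1 : α ≤ 1)
    (ha : ∀ e e', ‖e‖ = 1 → ‖e'‖ = 1 → ‖e - e₀‖ < r → ‖e' - e₀‖ < r →
      ‖a e - a e'‖ ≤ C * ‖e - e'‖ ^ α)
    (hK : ∀ e, ‖e‖ = 1 → ‖e - e₀‖ < r → ∀ t ∈ Icc (0 : ℝ) 1, a e + t • e ∈ K)
    (V : Submodule ℝ (EuclideanSpace ℝ (Fin n))) (hV : e₀ ∈ V) {k : ℕ}
    (hk : Module.finrank ℝ V = k + 1) (hkα : (k : ℝ) - 1 < k * α) :
    volume ((fun x => V.orthogonalProjectionOnto x) '' K) ≠ 0 ∧ ((k + 1 : ℕ) : ENNReal) ≤ dimH K := by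
  have hvol : volume ((fun x => V.orthogonalProjectionOnto x) '' K) ≠ 0 := by
    refine finb (V := V) hk (a := fun e => V.orthogonalProjectionOnto (a e)) hr
      (e₀ := ⟨e₀, hV⟩) he₀ hC hα hα1 hkα ?_ ?_
    · intro e e' he he' hee hee'
      have h1 := ha e e' he he' hee hee'
      refine le_trans ?_ h1
      rw [← map_sub]
      exact V.norm_orthogonalProjectionOnto_apply_le _
    · intro e he hee t ht
      refine ⟨a e + t • (e : EuclideanSpace ℝ (Fin n)), hK e he hee t ht, ?_⟩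
      show V.orthogonalProjectionOnto (a e + t • (e : EuclideanSpace ℝ (Fin n))) = _
      rw [map_add, map_smul, V.orthogonalProjectionOnto_mem_subspace_eq_self]
  refine ⟨hvol, ?_⟩
  have h1 := dimH_of_volume_ne_zero hvol
  rw [hk] at h1
  refine h1.trans ?_
  exact V.lipschitzWith_orthogonalProjectionOnto.dimH_image_le K

end Vale.Agent.P127H
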