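import Vale.Agent.P127H.FinC

/-! Module FIND: final assembly (helper92). -/

open MeasureTheory Metric Set

namespace Vale.Agent.P127H

theorem exists_sub {n : ℕ} {e₀ : EuclideanSpace ℝ (Fin n)} (he₀ : ‖e₀‖ = 1) (k : ℕ) (hk : k < n) :
    ∃ V : Submodule ℝ (EuclideanSpace ℝ (Fin n)), e₀ ∈ V ∧ Module.finrank ℝ V = k + 1 := by
  have h : ∀ k : ℕ, k < n → ∃ v : Fin (k + 1) → EuclideanSpace ℝ (Fin n),
      LinearIndependent ℝ v ∧ v 0 = e₀ := by
    intro k
    induction k with
    | zero =>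
      intro _
      refine ⟨fun _ => e₀, ?_, rfl⟩
      have : e₀ ≠ 0 := by
        intro h0
        rw [h0, norm_zero] at he₀
        exact zero_ne_one he₀
      exact (linearIndependent_unique_iff (R := ℝ) (v := fun _ : Fin 1 => e₀)).2 this
    | succ k ih =>
      intro hk
      obtain ⟨v, hv, hv0⟩ := ih (by omega)
      obtain ⟨x, hx⟩ := exists_linearIndependent_snoc_of_lt_finrank hv (by simpa using hk)
      refine ⟨_, hx, ?_⟩
      rw [show (0 : Fin (k + 1 + 1)) = Fin.castSucc (0 : Fin (k + 1)) from rfl]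
      rw [Fin.snoc_castSucc]
      exact hv0
  obtain ⟨v, hv, hv0⟩ := h k hk
  refine ⟨Submodule.span ℝ (range v), ?_, ?_⟩
  · rw [← hv0]
    exact Submodule.subset_span (mem_range_self _)
  · rw [finrank_span_eq_card hv, Fintype.card_fin]

theorem slices {m : ℕ} {a : Vec m → Vec m} {C α r : ℝ} {c : Vec m} (hr : 0 < r) (hC : 0 ≤ C)
    (hα : 0 < α) (hα1 : α ≤ 1) (hmα : (m : ℝ) - 1 < m * α)
    (ha : ∀ v ∈ closedBall c r, ∀ w ∈ closedBall c r, ‖a v - a w‖ ≤ C * ‖v - w‖ ^ α) :
    {t : ℝ | volume ((fun v => a v + t • v) '' closedBall c r) = 0}.encard ≤ m := by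
  by_contra hcon
  rw [not_le] at hcon
  have h1 : ((m + 1 : ℕ) : ℕ∞) ≤
      {t : ℝ | volume ((fun v => a v + t • v) '' closedBall c r) = 0}.encard := by
    rw [Nat.cast_add, Nat.cast_one]
    exact Order.add_one_le_of_lt hcon
  obtain ⟨s, hs, hsc⟩ := Set.exists_subset_encard_eq h1
  have hfin : s.Finite := Set.finite_of_encard_eq_coe hsc
  have hcard : hfin.toFinset.card = m + 1 := by
    have := hfin.encard_eq_coe_toFinset_card
    rw [hsc] at this
    exact_mod_cast this.symm
  set t : Fin (m + 1) → ℝ := fun i => (hfin.toFinset.equivFinOfCardEq hcard).symm i with ht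
  have hinj : Function.Injective t := by
    intro i j hij
    exact (hfin.toFinset.equivFinOfCardEq hcard).symm.injective (Subtype.ext hij)
  obtain ⟨i, hi⟩ := con2_ball hr hC hα hα1 hmα ha t hinj
  refine hi ?_
  have hmem : t i ∈ s := by
    have := ((hfin.toFinset.equivFinOfCardEq hcard).symm i).2
    exact (hfin.mem_toFinset).1 this
  exact hs hmem

end Vale.Agent.P127H
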