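import Vale.Agent.P127H.Con2

/-! Modules CHART, DIR (hints at each theorem). -/

open MeasureTheory Metric Set

namespace Vale.Agent.P127H

/-- CHART.  `K ⊆ ℝᵐ × ℝ` contains the points `(b v + t v, t)`, `|v| ≤ r`, `t ∈ [t0, t1]`, with `b` Hölder: then
`K` is not null.  Hint: if `volume K = 0` then (`toMeasurable` and Fubini: `Measure.measure_ae_null_of_prod_null`
after a swap) almost every slice `{x | (x, t) ∈ K} ⊇ {b v + t v}` is null; choose `m + 1` distinct such `t` in
`[t0, t1]` (a full measure subset of an interval is infinite) and use `con2_ball` (with `c = 0`). -/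
theorem chart {m : ℕ} {b : Vec m → Vec m} {C α r t0 t1 : ℝ} (hr : 0 < r) (hC : 0 ≤ C)
    (hα : 0 < α) (hα1 : α ≤ 1) (hmα : (m : ℝ) - 1 < m * α) (ht : t0 < t1)
    (hb : ∀ v ∈ closedBall (0 : Vec m) r, ∀ w ∈ closedBall (0 : Vec m) r,
      ‖b v - b w‖ ≤ C * ‖v - w‖ ^ α)
    {K : Set (Vec m × ℝ)}
    (hK : ∀ v ∈ closedBall (0 : Vec m) r, ∀ t ∈ Icc t0 t1, (b v + t • v, t) ∈ K) :
    volume K ≠ 0 := by
  intro h0
  have h1 : ((volume : Measure ℝ).prod (volume : Measure (Vec m))) (Prod.swap ⁻¹' K) = 0 := by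
    have h2 : MeasurePreserving (Prod.swap : ℝ × Vec m → Vec m × ℝ)
        ((volume : Measure ℝ).prod (volume : Measure (Vec m)))
        ((volume : Measure (Vec m)).prod (volume : Measure ℝ)) := Measure.measurePreserving_swap
    exact h2.quasiMeasurePreserving.preimage_null (s := K) h0
  have h5 := Measure.measure_ae_null_of_prod_null h1
  set G : Set ℝ := {t | volume (Prod.mk t ⁻¹' (Prod.swap ⁻¹' K)) = 0} with hG
  have h6 : volume Gᶜ = 0 := h5
  have hinf : (Icc t0 t1 ∩ G).Infinite := by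
    intro hfin
    have h7 : volume (Icc t0 t1 ∩ G) = 0 := hfin.measure_zero _
    have h8 : volume (Icc t0 t1) ≤ volume (Icc t0 t1 ∩ G) + volume Gᶜ := by
      refine (measure_mono ?_).trans (measure_union_le _ _)
      intro x hx
      by_cases hxG : x ∈ G
      · exact Or.inl ⟨hx, hxG⟩
      · exact Or.inr hxG
    rw [h7, h6, add_zero, Real.volume_Icc] at h8
    have h9 : ENNReal.ofReal (t1 - t0) = 0 := le_antisymm h8 zero_le
    rw [ENNReal.ofReal_eq_zero] at h9
    linarith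
  set e := hinf.natEmbedding with he
  obtain ⟨i, hi⟩ := con2_ball (a := b) (c := 0) hr hC hα hα1 hmα hb
    (fun i : Fin (m + 1) => ((e i : ↥(Icc t0 t1 ∩ G)) : ℝ)) (by
      intro i j hij
      have h10 := e.injective (Subtype.ext hij)
      exact Fin.ext h10)
  apply hi
  have h11 := (e i).2.2
  refine measure_mono_null ?_ h11
  rintro _ ⟨v, hv, rfl⟩
  exact hK v hv _ (e i).2.1

/-- The direction of the line `t ↦ (b + t v, t)`, normalized, in `ℝ^(m+1)` -/
noncomputable def dir {m : ℕ} (v : Vec m) : EuclideanSpace ℝ (Fin (m + 1)) :=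
  (Real.sqrt (1 + ∑ i, v i ^ 2))⁻¹ • WithLp.toLp 2 (Fin.snoc (α := fun _ => ℝ) v 1)

private theorem DIR_pos {m : ℕ} (v : Vec m) : 0 < 1 + ∑ i, v i ^ 2 := by
  have : 0 ≤ ∑ i, v i ^ 2 := Finset.sum_nonneg fun i _ => sq_nonneg _
  linarith

private theorem DIR_contDiff (m : ℕ) : ContDiff ℝ 1 (dir : Vec m → _) := by
  have h1 : ContDiff ℝ 1 (fun v : Vec m => (Real.sqrt (1 + ∑ i, v i ^ 2))⁻¹) := by
    refine ContDiff.inv ?_ fun v => (Real.sqrt_pos.2 (DIR_pos v)).ne'
    refine ContDiff.sqrt ?_ fun v => (DIR_pos v).ne'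
    fun_prop
  have h2 : ContDiff ℝ 1 (fun v : Vec m =>
      (WithLp.toLp 2 (Fin.snoc (α := fun _ => ℝ) v 1) : EuclideanSpace ℝ (Fin (m + 1)))) := by
    rw [contDiff_euclidean]
    intro i
    refine Fin.lastCases ?_ (fun j => ?_) i
    · simp only [Fin.snoc_last]
      exact contDiff_const
    · simp only [Fin.snoc_castSucc]
      exact contDiff_apply ℝ ℝ j
  exact h1.smul h2

/-- DIR.  `dir v` is a unit vector, `dir` is Lipschitz near `0`, and `dir 0` is the last basis vector. -/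
theorem dir_props (m : ℕ) : ∃ C : ℝ, 0 ≤ C ∧ (∀ v : Vec m, ‖dir v‖ = 1) ∧
    dir (0 : Vec m) = EuclideanSpace.single (Fin.last m) 1 ∧
    ∀ v ∈ closedBall (0 : Vec m) 1, ∀ w ∈ closedBall (0 : Vec m) 1,
      ‖dir v - dir w‖ ≤ C * ‖v - w‖ := by
  have hd := DIR_contDiff m
  have hcont : Continuous (fun v : Vec m => ‖fderiv ℝ dir v‖) :=
    (hd.continuous_fderiv one_ne_zero).norm
  obtain ⟨C, hC⟩ := (isCompact_closedBall (0 : Vec m) 1).exists_bound_of_continuousOn
    hcont.continuousOn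
  have hC' : ∀ v ∈ closedBall (0 : Vec m) 1, ‖fderiv ℝ dir v‖ ≤ C := by
    intro v hv
    have := hC v hv
    rwa [Real.norm_eq_abs, abs_of_nonneg (norm_nonneg _)] at this
  refine ⟨C, ?_, ?_, ?_, ?_⟩
  · exact (norm_nonneg _).trans (hC' 0 (mem_closedBall_self zero_le_one))
  · intro v
    unfold dir
    rw [norm_smul, norm_inv, Real.norm_eq_abs, abs_of_nonneg (Real.sqrt_nonneg _),
      EuclideanSpace.norm_eq, Fin.sum_univ_castSucc]
    simp only [Fin.snoc_castSucc, Fin.snoc_last, Real.norm_eq_abs, sq_abs, one_pow]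
    rw [add_comm (∑ i, v i ^ 2) 1]
    exact inv_mul_cancel₀ (Real.sqrt_pos.2 (DIR_pos v)).ne'
  · unfold dir
    ext i
    refine Fin.lastCases ?_ (fun j => ?_) i
    · simp
    · simp [Fin.castSucc_ne_last]
  · intro v hv w hw
    exact (convex_closedBall (0 : Vec m) 1).norm_image_sub_le_of_norm_fderiv_le
      (fun x _ => (hd.differentiable one_ne_zero) x) hC' hw hv

end Vale.Agent.P127H
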