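import Vale.Agent.P127H.Defs

/-! Module MOL.  Hints: `b = ρ_ε ⋆ a` with `ρ_ε` a normalized `ContDiffBump` of radius `ε` (or
`ε^(-m) ρ(·/ε)` for a fixed bump), componentwise or vector valued; `|b - a| ≤ C ε^α` because `ρ_ε` is a
probability density supported in the ball of radius `ε`.  `Db(v) = ∫ Dρ_ε(v - u) (a(u) - a(v)) du`
(`∫ Dρ_ε = 0`), `‖Dρ_ε‖ ≤ C ε^(-m-1)`; use `ρ_ε = ε^(-m) ρ(·/ε)` so that the constants do not depend on `ε`. -/

open MeasureTheory

namespace Vale.Agent.P127H

theorem MOL_cont {m : ℕ} {a : Vec m → Vec m} {C α : ℝ} (hα : 0 < α)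
    (ha : ∀ v w, ‖a v - a w‖ ≤ C * ‖v - w‖ ^ α) : Continuous a := by
  rw [continuous_iff_continuousAt]
  intro w
  rw [ContinuousAt, tendsto_iff_norm_sub_tendsto_zero]
  refine squeeze_zero (fun v => norm_nonneg _) (fun v => ha v w) ?_
  have h1 : Continuous fun v : Vec m => C * ‖v - w‖ ^ α := by
    refine continuous_const.mul ?_
    exact (continuous_norm.comp (continuous_id.sub continuous_const)).rpow_const
      (fun _ => Or.inr hα.le)
  have h2 := h1.tendsto w
  simpa [Real.zero_rpow hα.ne'] using h2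

theorem exists_moll {m : ℕ} {a : Vec m → Vec m} {C α : ℝ} (hC : 0 ≤ C) (hα : 0 < α) (hα1 : α ≤ 1)
    (ha : ∀ v w, ‖a v - a w‖ ≤ C * ‖v - w‖ ^ α) :
    ∃ M : ℝ, 0 ≤ M ∧ ∀ ε : ℝ, 0 < ε → ε ≤ 1 → ∃ b : Vec m → Vec m, ContDiff ℝ 1 b ∧
      (∀ v, ‖b v - a v‖ ≤ M * ε ^ α) ∧ ∀ v, ‖fderiv ℝ b v‖ ≤ M * ε ^ (α - 1) := by
  have hac : Continuous a := MOL_cont hα ha
  let φ : ContDiffBump (0 : Vec m) := ⟨1 / 2, 1, by norm_num, by norm_num⟩
  set ρ : Vec m → ℝ := φ.normed volume with hρ
  have hρ1 : ∫ w, ρ w = 1 := φ.integral_normed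
  have hρ0 : ∀ w, 0 ≤ ρ w := φ.nonneg_normed
  have hρi : Integrable ρ volume := φ.integrable_normed
  have hρs : HasCompactSupport ρ := φ.hasCompactSupport_normed
  have hρd : ContDiff ℝ 1 ρ := by
    have := φ.contDiff_normed (μ := volume) (n := 1)
    exact_mod_cast this
  have hρc : Continuous ρ := hρd.continuous
  have hρz : ∀ w, 1 ≤ ‖w‖ → ρ w = 0 := by
    intro w hw
    have h1 : w ∉ Function.support ρ := by
      rw [hρ, φ.support_normed_eq]
      simp only [Metric.mem_ball, dist_zero_right]
      show ¬ ‖w‖ < 1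
      exact not_lt.2 hw
    exact Function.notMem_support.1 h1
  obtain ⟨L, hL⟩ := hρd.lipschitzWith_of_hasCompactSupport hρs one_ne_zero
  set V : ℝ := volume.real (Metric.closedBall (0 : Vec m) 2) with hV
  have hV0 : 0 ≤ V := measureReal_nonneg
  -- constant
  set M : ℝ := C + (L : ℝ) * C * 2 ^ α * V with hM
  have hM1 : 0 ≤ (L : ℝ) * C * 2 ^ α * V := by positivity
  refine ⟨M, by positivity, ?_⟩
  intro ε hε hε1
  -- the mollification
  set b : Vec m → Vec m := fun v => ∫ w, ρ w • a (v - ε • w) with hb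
  -- integrability of compactly supported continuous functions
  have hint : ∀ v h : Vec m, Integrable (fun w => ρ (w + h) • a (v - ε • w)) volume := by
    intro v h
    refine Continuous.integrable_of_hasCompactSupport ?_ ?_
    · exact (hρc.comp (continuous_id.add continuous_const)).smul
        (hac.comp (continuous_const.sub (continuous_const_smul ε)))
    · have : HasCompactSupport (fun w => ρ (w + h)) := by
        have := hρs.comp_homeomorph (Homeomorph.addRight h)
        exact this
      exact this.smul_right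
  have hshift : ∀ h : Vec m, ∫ w, ρ (w + h) = 1 := fun h => by
    rw [integral_add_right_eq_self ρ h]; exact hρ1
  have hshi : ∀ h : Vec m, Integrable (fun w => ρ (w + h)) volume := fun h =>
    hρi.comp_add_right h
  refine ⟨b, ?_, ?_, ?_⟩
  · -- smoothness
    set ρε : Vec m → ℝ := fun t => (ε ^ m)⁻¹ * ρ (ε⁻¹ • t) with hρε
    have h1 : ContDiff ℝ 1 ρε :=
      contDiff_const.mul (hρd.comp (contDiff_const_smul ε⁻¹))
    have h2 : HasCompactSupport ρε := by
      have h3 : HasCompactSupport (fun t : Vec m => ρ (ε⁻¹ • t)) :=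
        hρs.comp_smul (inv_ne_zero hε.ne')
      exact h3.mul_left
    have h4 := h2.contDiff_convolution_left (ContinuousLinearMap.lsmul ℝ ℝ) (μ := volume) h1
      hac.locallyIntegrable
    have h5 : b = convolution ρε a (ContinuousLinearMap.lsmul ℝ ℝ) volume := by
      funext v
      have h6 := Measure.integral_comp_inv_smul_of_nonneg (μ := (volume : Measure (Vec m)))
        (fun w => ρ w • a (v - ε • w)) hε.le
      have h7 : ∀ t : Vec m, ε • (ε⁻¹ • t) = t := fun t => by
        rw [smul_smul, mul_inv_cancel₀ hε.ne', one_smul]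
      simp only [h7] at h6
      have h8 : Module.finrank ℝ (Vec m) = m := by simp [Vec]
      rw [h8] at h6
      have h9 : convolution ρε a (ContinuousLinearMap.lsmul ℝ ℝ) volume v =
          ∫ t, (ε ^ m)⁻¹ • (ρ (ε⁻¹ • t) • a (v - t)) := by
        unfold convolution
        refine integral_congr_ae (Filter.Eventually.of_forall fun t => ?_)
        simp [hρε, smul_smul]
      rw [h9, integral_smul, h6, smul_smul, inv_mul_cancel₀ (pow_ne_zero _ hε.ne'), one_smul]
    rw [h5]
    exact h4
  · intro v
    have h1 : b v - a v = ∫ w, ρ w • (a (v - ε • w) - a v) := by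
      have h2 := hint v 0
      simp only [add_zero] at h2
      have h3 : ∫ w, ρ w • (a (v - ε • w) - a v) =
          (∫ w, ρ w • a (v - ε • w)) - ∫ w, ρ w • a v := by
        rw [← integral_sub h2 (hρi.smul_const (a v))]
        refine integral_congr_ae (Filter.Eventually.of_forall fun w => ?_)
        simp only [smul_sub]
      rw [h3, integral_smul_const, hρ1, one_smul]
    rw [h1]
    have h4 : ‖∫ w, ρ w • (a (v - ε • w) - a v)‖ ≤ ∫ w, (C * ε ^ α) * ρ w := by
      refine norm_integral_le_of_norm_le (hρi.const_mul _) (Filter.Eventually.of_forall fun w => ?_)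
      rw [norm_smul, Real.norm_of_nonneg (hρ0 w)]
      by_cases hw : 1 ≤ ‖w‖
      · rw [hρz w hw]; simp
      · rw [not_le] at hw
        have h5 : ‖a (v - ε • w) - a v‖ ≤ C * ε ^ α := by
          refine (ha _ _).trans (mul_le_mul_of_nonneg_left ?_ hC)
          refine Real.rpow_le_rpow (norm_nonneg _) ?_ hα.le
          rw [show v - ε • w - v = -(ε • w) by abel, norm_neg, norm_smul, Real.norm_of_nonneg hε.le]
          nlinarith [norm_nonneg w]
        rw [mul_comm]
        exact mul_le_mul_of_nonneg_right h5 (hρ0 w)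
    rw [integral_const_mul, hρ1, mul_one] at h4
    refine h4.trans (mul_le_mul_of_nonneg_right ?_ (Real.rpow_nonneg hε.le _))
    linarith
  · intro v
    refine norm_fderiv_le_of_lip' ℝ (by positivity) ?_
    rw [Metric.eventually_nhds_iff]
    refine ⟨ε, hε, fun {x} hx => ?_⟩
    rw [dist_eq_norm] at hx
    set h : Vec m := x - v with hh
    have hxv : x = v + h := by rw [hh]; abel
    -- shift
    have e1 : b x = ∫ w, ρ (w + ε⁻¹ • h) • a (v - ε • w) := by
      rw [hxv]
      show ∫ w, ρ w • a (v + h - ε • w) = _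
      rw [← integral_add_right_eq_self (fun w => ρ w • a (v + h - ε • w)) (ε⁻¹ • h)]
      refine integral_congr_ae (Filter.Eventually.of_forall fun w => ?_)
      simp only
      congr 2
      rw [smul_add, smul_smul, mul_inv_cancel₀ hε.ne', one_smul]
      abel
    have e2 : b x - b v = ∫ w, (ρ (w + ε⁻¹ • h) - ρ w) • (a (v - ε • w) - a v) := by
      have i1 := hint v (ε⁻¹ • h)
      have i0 := hint v 0
      simp only [add_zero] at i0
      have i2 := (hshi (ε⁻¹ • h)).smul_const (a v)
      have i3 := hρi.smul_const (a v)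
      have h3 : ∫ w, (ρ (w + ε⁻¹ • h) - ρ w) • (a (v - ε • w) - a v) =
          ((∫ w, ρ (w + ε⁻¹ • h) • a (v - ε • w)) - ∫ w, ρ w • a (v - ε • w)) -
            ((∫ w, ρ (w + ε⁻¹ • h) • a v) - ∫ w, ρ w • a v) := by
        have j := integral_sub (i1.sub i0) (i2.sub i3)
        simp only [Pi.sub_apply] at j
        rw [← integral_sub i1 i0, ← integral_sub i2 i3, ← j]
        refine integral_congr_ae (Filter.Eventually.of_forall fun w => ?_)
        simp only [smul_sub, sub_smul]
      rw [h3, integral_smul_const, integral_smul_const, hshift, hρ1, e1]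
      simp [hb]
    rw [e2]
    set K : ℝ := (L : ℝ) * (ε⁻¹ * ‖h‖) * (C * (ε ^ α * 2 ^ α)) with hK
    have hK0 : 0 ≤ K := by positivity
    have e3 : ‖∫ w, (ρ (w + ε⁻¹ • h) - ρ w) • (a (v - ε • w) - a v)‖ ≤
        ∫ w, (Metric.closedBall (0 : Vec m) 2).indicator (fun _ => K) w := by
      refine norm_integral_le_of_norm_le ?_ (Filter.Eventually.of_forall fun w => ?_)
      · rw [integrable_indicator_iff Metric.isClosed_closedBall.measurableSet]
        exact integrableOn_const (by
          exact (isCompact_closedBall (0 : Vec m) 2).measure_lt_top.ne)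
      · rw [norm_smul]
        have hhε : ‖ε⁻¹ • h‖ ≤ 1 := by
          rw [norm_smul, Real.norm_of_nonneg (inv_nonneg.2 hε.le)]
          rw [inv_mul_le_iff₀ hε, mul_one]
          exact hx.le
        by_cases hw : w ∈ Metric.closedBall (0 : Vec m) 2
        · rw [Set.indicator_of_mem hw]
          have hw2 : ‖w‖ ≤ 2 := by simpa using hw
          have f1 : ‖ρ (w + ε⁻¹ • h) - ρ w‖ ≤ (L : ℝ) * (ε⁻¹ * ‖h‖) := by
            have := hL.dist_le_mul (w + ε⁻¹ • h) w
            rw [dist_eq_norm, dist_eq_norm, add_sub_cancel_left, norm_smul,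
              Real.norm_of_nonneg (inv_nonneg.2 hε.le)] at this
            exact this
          have f2 : ‖a (v - ε • w) - a v‖ ≤ C * (ε ^ α * 2 ^ α) := by
            refine (ha _ _).trans (mul_le_mul_of_nonneg_left ?_ hC)
            rw [← Real.mul_rpow hε.le (by norm_num)]
            refine Real.rpow_le_rpow (norm_nonneg _) ?_ hα.le
            rw [show v - ε • w - v = -(ε • w) by abel, norm_neg, norm_smul,
              Real.norm_of_nonneg hε.le]
            nlinarith [norm_nonneg w]
          exact mul_le_mul f1 f2 (norm_nonneg _) (by positivity)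
        · rw [Set.indicator_of_notMem hw]
          have hw2 : 2 < ‖w‖ := by simpa using hw
          have g1 : ρ w = 0 := hρz w (by linarith)
          have g2 : ρ (w + ε⁻¹ • h) = 0 := by
            apply hρz
            have := norm_sub_le (w + ε⁻¹ • h) (ε⁻¹ • h)
            rw [add_sub_cancel_right] at this
            linarith
          rw [g1, g2]
          simp
    refine e3.trans ?_
    rw [integral_indicator Metric.isClosed_closedBall.measurableSet, setIntegral_const]
    rw [smul_eq_mul, ← hV]
    have e4 : ε ^ (α - 1) = ε ^ α * ε⁻¹ := by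
      rw [Real.rpow_sub hε, Real.rpow_one, div_eq_mul_inv]
    rw [e4, hK, hM]
    have e5 : V * ((L : ℝ) * (ε⁻¹ * ‖h‖) * (C * (ε ^ α * 2 ^ α))) =
        ((L : ℝ) * C * 2 ^ α * V) * (ε ^ α * ε⁻¹) * ‖h‖ := by ring
    rw [e5]
    refine mul_le_mul_of_nonneg_right ?_ (norm_nonneg _)
    refine mul_le_mul_of_nonneg_right ?_ (by positivity)
    linarith

end Vale.Agent.P127H
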