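import Vale.Agent.P127H.Defs

/-! Module POLY (Stone-Weierstrass).  Hints: let `K = Metric.closedBall 0 R` (compact, as a subtype); the
restrictions to `K` of `PolyLike` functions form a `Subalgebra ℝ C(K, ℝ)` (sums and products: add / multiply
the polynomials, degrees `≤ max N N'`, `N + N'`), it contains the coordinates, so it separates points;
`ContinuousMap.exists_mem_subalgebra_near_continuous_of_separatesPoints` (or `..._topologicalClosure...`). -/

open MeasureTheory

namespace Vale.Agent.P127H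

theorem polyLike_const {m : ℕ} (c : ℝ) : PolyLike (fun _ : Vec m => c) :=
  ⟨continuous_const, 0, fun _ _ => ⟨Polynomial.C c, by simp, fun l => by simp⟩⟩

theorem polyLike_coord {m : ℕ} (i : Fin m) : PolyLike (fun x : Vec m => x i) :=
  ⟨continuous_apply i, 1, fun x y => ⟨Polynomial.C (y i) * Polynomial.X + Polynomial.C (x i),
    Polynomial.natDegree_linear_le, fun l => by
      simp only [Pi.add_apply, Pi.smul_apply, smul_eq_mul, Polynomial.eval_add,
        Polynomial.eval_mul, Polynomial.eval_C, Polynomial.eval_X]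
      ring⟩⟩

theorem PolyLike.add {m : ℕ} {g h : Vec m → ℝ} (hg : PolyLike g) (hh : PolyLike h) :
    PolyLike (fun x => g x + h x) := by
  obtain ⟨hg1, N, hN⟩ := hg
  obtain ⟨hh1, M, hM⟩ := hh
  refine ⟨hg1.add hh1, max N M, fun x y => ?_⟩
  obtain ⟨p, hp, hpe⟩ := hN x y
  obtain ⟨q, hq, hqe⟩ := hM x y
  refine ⟨p + q, (Polynomial.natDegree_add_le p q).trans (max_le_max hp hq), fun l => ?_⟩
  rw [Polynomial.eval_add, ← hpe, ← hqe]

theorem PolyLike.mul {m : ℕ} {g h : Vec m → ℝ} (hg : PolyLike g) (hh : PolyLike h) :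
    PolyLike (fun x => g x * h x) := by
  obtain ⟨hg1, N, hN⟩ := hg
  obtain ⟨hh1, M, hM⟩ := hh
  refine ⟨hg1.mul hh1, N + M, fun x y => ?_⟩
  obtain ⟨p, hp, hpe⟩ := hN x y
  obtain ⟨q, hq, hqe⟩ := hM x y
  refine ⟨p * q, Polynomial.natDegree_mul_le.trans (add_le_add hp hq), fun l => ?_⟩
  rw [Polynomial.eval_mul, ← hpe, ← hqe]

/-- the restrictions of the `PolyLike` functions to a set -/
noncomputable def POLY_alg (m : ℕ) (K : Set (Vec m)) : Subalgebra ℝ C(K, ℝ) where
  carrier := {f | ∃ g : Vec m → ℝ, PolyLike g ∧ ∀ x : K, f x = g x}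
  mul_mem' := by
    rintro a b ⟨g, hg, hga⟩ ⟨h, hh, hhb⟩
    exact ⟨_, hg.mul hh, fun x => by rw [ContinuousMap.mul_apply, hga, hhb]⟩
  add_mem' := by
    rintro a b ⟨g, hg, hga⟩ ⟨h, hh, hhb⟩
    exact ⟨_, hg.add hh, fun x => by rw [ContinuousMap.add_apply, hga, hhb]⟩
  algebraMap_mem' := by
    intro r
    exact ⟨_, polyLike_const r, fun x => rfl⟩

theorem POLY_sep (m : ℕ) (K : Set (Vec m)) : (POLY_alg m K).SeparatesPoints := by
  intro x y hxy
  have h1 : (x : Vec m) ≠ y := fun h => hxy (Subtype.ext h)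
  obtain ⟨i, hi⟩ := Function.ne_iff.1 h1
  refine ⟨fun z => (z : Vec m) i, ⟨⟨fun z => (z : Vec m) i,
    (continuous_apply i).comp continuous_subtype_val⟩, ?_, rfl⟩, hi⟩
  exact ⟨_, polyLike_coord i, fun z => rfl⟩

theorem approx_poly {m : ℕ} {η : Vec m → ℝ} (hη : Continuous η) (R : ℝ) {δ : ℝ} (hδ : 0 < δ) :
    ∃ g : Vec m → ℝ, PolyLike g ∧ ∀ x, ‖x‖ ≤ R → |g x - η x| ≤ δ := by
  have hK : CompactSpace (Metric.closedBall (0 : Vec m) R) :=
    isCompact_iff_compactSpace.1 (isCompact_closedBall 0 R)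
  obtain ⟨⟨f, g, hg, hfg⟩, hf⟩ :=
    ContinuousMap.exists_mem_subalgebra_near_continuous_of_separatesPoints
      (POLY_alg m (Metric.closedBall (0 : Vec m) R)) (POLY_sep m _)
      (fun z => η z) (hη.comp continuous_subtype_val) δ hδ
  refine ⟨g, hg, fun x hx => ?_⟩
  have h1 := hf ⟨x, by simpa using hx⟩
  simp only [hfg, Real.norm_eq_abs] at h1
  exact h1.le

end Vale.Agent.P127H
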