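import Vale.Agent.P127H.BigL
import Vale.Agent.P127H.Poly
import Vale.Agent.P127H.DetP

/-! Module NL.  Hints: for `PolyLike g`: for each `v`, `l ↦ g (f v + l v) * J f l v` is a polynomial of degree
`≤ N + m` (product of the polynomial of `g` and `det_poly`), so `extrap (N + m) t L` gives weights independent
of `v`; integrate over the bounded set `D` (integrands are continuous, so integrable on bounded sets) and use
`big_lambda` at the nodes.  For continuous `η`: approximate on a big ball by `approx_poly` with `δ → 0`. -/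

open MeasureTheory

namespace Vale.Agent.P127H

theorem NL_cont {m : ℕ} {f : Vec m → Vec m} (hf : ContDiff ℝ 1 f) (l : ℝ) {g : Vec m → ℝ}
    (hg : Continuous g) : Continuous fun v => g (f v + l • v) * J f l v :=
  (hg.comp (hf.continuous.add (continuous_id.const_smul l))).mul (continuous_J hf l)

theorem NL_int {m : ℕ} {D : Set (Vec m)} (hDb : Bornology.IsBounded D) {h : Vec m → ℝ}
    (hh : Continuous h) : IntegrableOn h D := by
  obtain ⟨R, hR⟩ := hDb.subset_closedBall 0
  exact (hh.continuousOn.integrableOn_compact (isCompact_closedBall 0 R)).mono_set hR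

theorem null_lag_poly {m : ℕ} {f q : Vec m → Vec m} (hf : ContDiff ℝ 1 f) (hq : ContDiff ℝ 1 q)
    {L : NNReal} (hfL : LipschitzWith L f) (hqL : LipschitzWith L q) {D : Set (Vec m)}
    (hD : MeasurableSet D) (hDb : Bornology.IsBounded D) (hfq : ∀ v, v ∉ D → f v = q v) (t : ℝ)
    {g : Vec m → ℝ} (hg : PolyLike g) :
    ∫ v in D, g (f v + t • v) * J f t v = ∫ v in D, g (q v + t • v) * J q t v := by
  obtain ⟨hgc, N, hN⟩ := hg
  obtain ⟨x, w, hx, hw⟩ := extrap (N + m) t L
  have key : ∀ {F : Vec m → Vec m}, ContDiff ℝ 1 F → ∫ v in D, g (F v + t • v) * J F t v =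
      ∑ i, w i * ∫ v in D, g (F v + x i • v) * J F (x i) v := by
    intro F hF
    have h1 : ∀ v, g (F v + t • v) * J F t v =
        ∑ i, w i * (g (F v + x i • v) * J F (x i) v) := by
      intro v
      obtain ⟨p, hp, hpe⟩ := hN (F v) v
      obtain ⟨r, hrm, hrd, hre⟩ := det_poly (fderiv ℝ F v)
      have h2 := hw (p * r) ((Polynomial.natDegree_mul_le).trans (by omega))
      simp only [Polynomial.eval_mul] at h2
      rw [hpe t, J, hre t, h2]
      refine Finset.sum_congr rfl fun i _ => ?_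
      rw [hpe (x i), J, hre (x i)]
    simp_rw [h1]
    rw [integral_finsetSum]
    · simp_rw [integral_const_mul]
    · intro i _
      exact (NL_int hDb (NL_cont hF (x i) hgc)).const_mul (w i)
  rw [key hf, key hq]
  refine Finset.sum_congr rfl fun i _ => ?_
  rw [big_lambda hf hq hfL hqL hD hfq (hx i) g]

theorem NL_close {m : ℕ} {F : Vec m → Vec m} (hF : ContDiff ℝ 1 F) {D : Set (Vec m)}
    (hD : MeasurableSet D) (hDb : Bornology.IsBounded D) (t : ℝ) {η g : Vec m → ℝ}
    (hη : Continuous η) (hg : Continuous g) {R δ : ℝ} (hR : ∀ v ∈ D, ‖F v + t • v‖ ≤ R)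
    (hδ : ∀ x, ‖x‖ ≤ R → |g x - η x| ≤ δ) :
    |(∫ v in D, g (F v + t • v) * J F t v) - ∫ v in D, η (F v + t • v) * J F t v| ≤
      δ * ∫ v in D, |J F t v| := by
  rw [← integral_sub (NL_int hDb (NL_cont hF t hg)) (NL_int hDb (NL_cont hF t hη)),
    ← integral_const_mul, ← Real.norm_eq_abs]
  refine (norm_integral_le_integral_norm _).trans ?_
  refine setIntegral_mono_on ?_ ?_ hD (fun v hv => ?_)
  · exact ((NL_int hDb (NL_cont hF t hg)).sub (NL_int hDb (NL_cont hF t hη))).norm
  · exact (NL_int hDb (continuous_J hF t).abs).const_mul δ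
  · rw [← sub_mul, norm_mul, Real.norm_eq_abs, Real.norm_eq_abs]
    exact mul_le_mul_of_nonneg_right (hδ _ (hR v hv)) (abs_nonneg _)

theorem null_lag {m : ℕ} {f q : Vec m → Vec m} (hf : ContDiff ℝ 1 f) (hq : ContDiff ℝ 1 q)
    {L : NNReal} (hfL : LipschitzWith L f) (hqL : LipschitzWith L q) {D : Set (Vec m)}
    (hD : MeasurableSet D) (hDb : Bornology.IsBounded D) (hfq : ∀ v, v ∉ D → f v = q v) (t : ℝ)
    {η : Vec m → ℝ} (hη : Continuous η) :
    ∫ v in D, η (f v + t • v) * J f t v = ∫ v in D, η (q v + t • v) * J q t v := by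
  obtain ⟨R1, hR1⟩ := hDb.subset_closedBall 0
  have hK : IsCompact (Metric.closedBall (0 : Vec m) R1) := isCompact_closedBall _ _
  have hbd : ∀ {F : Vec m → Vec m}, ContDiff ℝ 1 F → ∃ R, ∀ v ∈ D, ‖F v + t • v‖ ≤ R := by
    intro F hF
    obtain ⟨C, hC⟩ := hK.exists_bound_of_continuousOn (f := fun v => F v + t • v)
      (hF.continuous.add (continuous_id.const_smul t)).continuousOn
    exact ⟨C, fun v hv => hC v (hR1 hv)⟩
  obtain ⟨Rf, hRf⟩ := hbd hf
  obtain ⟨Rq, hRq⟩ := hbd hq
  have hCf : 0 ≤ ∫ v in D, |J f t v| := integral_nonneg fun v => abs_nonneg _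
  have hCq : 0 ≤ ∫ v in D, |J q t v| := integral_nonneg fun v => abs_nonneg _
  have hpos : 0 < (∫ v in D, |J f t v|) + (∫ v in D, |J q t v|) + 1 := by linarith
  refine sub_eq_zero.1 (abs_eq_zero.1 (le_antisymm ?_ (abs_nonneg _)))
  refine le_of_forall_pos_le_add fun ε hε => ?_
  obtain ⟨g, hg, hgη⟩ := approx_poly hη (max Rf Rq)
    (δ := ε / ((∫ v in D, |J f t v|) + (∫ v in D, |J q t v|) + 1)) (by positivity)
  have h1 := NL_close hf hD hDb t hη hg.1 (fun v hv => (hRf v hv).trans (le_max_left _ _)) hgη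
  have h2 := NL_close hq hD hDb t hη hg.1 (fun v hv => (hRq v hv).trans (le_max_right _ _)) hgη
  rw [null_lag_poly hf hq hfL hqL hD hDb hfq t hg] at h1
  have h3 : ε / ((∫ v in D, |J f t v|) + (∫ v in D, |J q t v|) + 1) * (∫ v in D, |J f t v|) +
      ε / ((∫ v in D, |J f t v|) + (∫ v in D, |J q t v|) + 1) * (∫ v in D, |J q t v|) ≤ ε := by
    rw [← mul_add, div_mul_eq_mul_div, div_le_iff₀ hpos]
    nlinarith
  rw [abs_le] at h1 h2 ⊢
  constructor <;> linarith [h1.1, h1.2, h2.1, h2.2]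

end Vale.Agent.P127H
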