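import Vale.Agent.P127H.NullLag
import Vale.Agent.P127H.Cut

/-! Module STEP.  Hints: `θ` from `exists_cut` with `s, s' = s + ε/4`; `q = b + θ • (b' - b)`.
`Dq = Db + θ D(b' - b) + (b' - b) ⊗ Dθ`, so `‖Dq + t‖ ≤ C₁ ε^(α-1)` on all of `ℝᵐ` (`ε ≤ 1`, `α ≤ 1`); `b`, `q` are
Lipschitz.  `null_lag` on `box m s`; on `box m s'` (open) `q = b'`, so `fderiv q = fderiv b'`; on the layer use
`det_bound`, `vol_layer` and `|η| ≤ 1`.  The constant must not depend on `ε, b, b', s, η` (only on `m, M, T, α`). -/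

open MeasureTheory

namespace Vale.Agent.P127H

private lemma STEP_intOn {m : ℕ} {F : Vec m → ℝ} (hF : Continuous F) (s : ℝ) :
    IntegrableOn F (box m s) :=
  (hF.continuousOn.integrableOn_compact (box_bdd m s).isCompact_closure).mono_set subset_closure

/-- the glued map -/
private lemma STEP_q {m : ℕ} {b b' : Vec m → Vec m} {θ : Vec m → ℝ} {A B R : ℝ}
    (hb : ContDiff ℝ 1 b) (hb' : ContDiff ℝ 1 b') (hθ : ContDiff ℝ 1 θ)
    (h01 : ∀ v, 0 ≤ θ v ∧ θ v ≤ 1) (hA : ∀ v, ‖fderiv ℝ b v‖ ≤ A)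
    (hA' : ∀ v, ‖fderiv ℝ b' v‖ ≤ A) (hB : ∀ v, ‖b v - b' v‖ ≤ B)
    (hR : ∀ v, ‖fderiv ℝ θ v‖ ≤ R) :
    ContDiff ℝ 1 (fun v => b v + θ v • (b' v - b v)) ∧
      ∀ v, ‖fderiv ℝ (fun v => b v + θ v • (b' v - b v)) v‖ ≤ 3 * A + R * B := by
  refine ⟨hb.add (hθ.smul (hb'.sub hb)), fun v => ?_⟩
  have h1 : HasFDerivAt b (fderiv ℝ b v) v := (hb.differentiable one_ne_zero v).hasFDerivAt
  have h2 : HasFDerivAt b' (fderiv ℝ b' v) v := (hb'.differentiable one_ne_zero v).hasFDerivAt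
  have h3 : HasFDerivAt θ (fderiv ℝ θ v) v := (hθ.differentiable one_ne_zero v).hasFDerivAt
  have h4 := h1.add (h3.smul (h2.sub h1))
  have h5 : fderiv ℝ (fun v => b v + θ v • (b' v - b v)) v
      = fderiv ℝ b v + (θ v • (fderiv ℝ b' v - fderiv ℝ b v)
        + (fderiv ℝ θ v).smulRight (b' v - b v)) := h4.fderiv
  rw [h5]
  have hA0 : 0 ≤ A := (norm_nonneg _).trans (hA v)
  have hR0 : 0 ≤ R := (norm_nonneg _).trans (hR v)
  have e1 : ‖θ v • (fderiv ℝ b' v - fderiv ℝ b v)‖ ≤ 2 * A := by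
    rw [norm_smul, Real.norm_eq_abs, abs_of_nonneg (h01 v).1]
    have h6 : ‖fderiv ℝ b' v - fderiv ℝ b v‖ ≤ 2 * A :=
      (norm_sub_le _ _).trans (by linarith [hA v, hA' v])
    calc θ v * ‖fderiv ℝ b' v - fderiv ℝ b v‖ ≤ 1 * (2 * A) :=
          mul_le_mul (h01 v).2 h6 (norm_nonneg _) zero_le_one
      _ = 2 * A := one_mul _
  have e2 : ‖(fderiv ℝ θ v).smulRight (b' v - b v)‖ ≤ R * B := by
    rw [ContinuousLinearMap.norm_smulRight_apply]
    refine mul_le_mul (hR v) ?_ (norm_nonneg _) hR0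
    rw [norm_sub_rev]
    exact hB v
  calc ‖fderiv ℝ b v + (θ v • (fderiv ℝ b' v - fderiv ℝ b v)
        + (fderiv ℝ θ v).smulRight (b' v - b v))‖
      ≤ ‖fderiv ℝ b v‖ + (‖θ v • (fderiv ℝ b' v - fderiv ℝ b v)‖
        + ‖(fderiv ℝ θ v).smulRight (b' v - b v)‖) :=
        (norm_add_le _ _).trans (add_le_add le_rfl (norm_add_le _ _))
    _ ≤ 3 * A + R * B := by linarith [hA v]

/-- bound of the Jacobian -/
private lemma STEP_J {m : ℕ} {M₁ K T t : ℝ} (hM : ∀ A : Vec m →L[ℝ] Vec m, |A.det| ≤ M₁ * ‖A‖ ^ m)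
    (hM₁ : 0 ≤ M₁) {q : Vec m → Vec m} {v : Vec m} (hq : ‖fderiv ℝ q v‖ ≤ K) (ht : |t| ≤ T) :
    |J q t v| ≤ M₁ * (K + T) ^ m := by
  unfold J
  refine (hM _).trans (mul_le_mul_of_nonneg_left ?_ hM₁)
  refine pow_le_pow_left₀ (norm_nonneg _) ?_ m
  refine (norm_add_le _ _).trans (add_le_add hq ?_)
  rw [norm_smul, Real.norm_eq_abs]
  calc |t| * ‖ContinuousLinearMap.id ℝ (Vec m)‖ ≤ |t| * 1 :=
        mul_le_mul_of_nonneg_left ContinuousLinearMap.norm_id_le (abs_nonneg t)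
    _ ≤ T := by rw [mul_one]; exact ht

private lemma STEP_pow {m : ℕ} {ε α : ℝ} (hε : 0 < ε) :
    ε * (ε ^ (α - 1)) ^ m = ε ^ (m * α - m + 1) := by
  rw [← Real.rpow_natCast (ε ^ (α - 1)) m, ← Real.rpow_mul hε.le]
  nth_rewrite 1 [← Real.rpow_one ε]
  rw [← Real.rpow_add hε]
  congr 1
  ring

theorem step {m : ℕ} {α M T : ℝ} (hα : 0 < α) (hα1 : α ≤ 1) (hM : 0 ≤ M) (hT : 0 ≤ T) :
    ∃ C : ℝ, 0 ≤ C ∧ ∀ ε : ℝ, 0 < ε → ε ≤ 1 → ∀ b b' : Vec m → Vec m, ContDiff ℝ 1 b →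
      ContDiff ℝ 1 b' → (∀ v, ‖fderiv ℝ b v‖ ≤ M * ε ^ (α - 1)) →
      (∀ v, ‖fderiv ℝ b' v‖ ≤ M * ε ^ (α - 1)) → (∀ v, ‖b v - b' v‖ ≤ M * ε ^ α) →
      ∀ s : ℝ, 0 ≤ s → s + ε / 4 < 1 / 2 → ∀ t : ℝ, |t| ≤ T → ∀ η : Vec m → ℝ, Continuous η →
      (∀ x, |η x| ≤ 1) → |Phi b t s η - Phi b' t (s + ε / 4) η| ≤ C * ε ^ (m * α - m + 1) := by
  obtain ⟨M₀, hM₀, hcut⟩ := exists_cut m
  obtain ⟨M₁, hM₁, hdet⟩ := det_bound m
  obtain ⟨C₁, hC₁⟩ : ∃ C₁ : ℝ, C₁ = 3 * M + 4 * M₀ * M := ⟨_, rfl⟩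
  have hC₁0 : 0 ≤ C₁ := by rw [hC₁]; positivity
  refine ⟨m / 2 * (M₁ * (C₁ + T) ^ m), by positivity, ?_⟩
  intro ε hε hε1 b b' hb hb' hDb hDb' hbb s hs hs2 t ht η hη hη1
  obtain ⟨θ, hθ, h01, hθ1, hθ0, hθd⟩ := hcut s (s + ε / 4) (by linarith)
  have hpow1 : 1 ≤ ε ^ (α - 1) :=
    Real.one_le_rpow_of_pos_of_le_one_of_nonpos hε hε1 (by linarith)
  obtain ⟨P, hP⟩ : ∃ P : ℝ, P = ε ^ (α - 1) := ⟨_, rfl⟩
  have hεα : ε ^ α = ε * P := by
    rw [hP]
    nth_rewrite 2 [← Real.rpow_one ε]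
    rw [← Real.rpow_add hε]
    congr 1
    ring
  rw [← hP] at hpow1 hDb hDb'
  obtain ⟨hq, hDq⟩ := STEP_q hb hb' hθ h01 hDb hDb' hbb hθd
  have hbound : 3 * (M * P) + M₀ / (s + ε / 4 - s) * (M * ε ^ α) = C₁ * P := by
    rw [hεα, hC₁]
    have : s + ε / 4 - s = ε / 4 := by ring
    rw [this]
    field_simp
  rw [hbound] at hDq
  set q : Vec m → Vec m := fun v => b v + θ v • (b' v - b v) with hqdef
  have hP0 : 0 ≤ P := by linarith
  have hDb2 : ∀ v, ‖fderiv ℝ b v‖ ≤ C₁ * P := fun v => (hDb v).trans (by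
    apply mul_le_mul_of_nonneg_right _ hP0
    rw [hC₁]
    have : 0 ≤ M₀ * M := mul_nonneg hM₀ hM
    linarith)
  have hL : ∀ g : Vec m → Vec m, ContDiff ℝ 1 g → (∀ v, ‖fderiv ℝ g v‖ ≤ C₁ * P) →
      LipschitzWith (Real.toNNReal (C₁ * P)) g := by
    intro g hg hgd
    refine lipschitzWith_of_nnnorm_fderiv_le (𝕜 := ℝ) (hg.differentiable one_ne_zero) fun v => ?_
    rw [← NNReal.coe_le_coe, coe_nnnorm, Real.coe_toNNReal _ (by positivity)]
    exact hgd v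
  have hnl := null_lag hb hq (hL b hb hDb2) (hL q hq hDq) (box_meas m s).1 (box_bdd m s)
    (fun v hv => by simp only [hqdef]; rw [hθ0 v hv, zero_smul, add_zero]) t hη
  have hsub : box m (s + ε / 4) ⊆ box m s := box_anti (by linarith)
  have hcont : Continuous fun v => η (q v + t • v) * J q t v := by
    have h1 : Continuous fun v : Vec m => q v + t • v :=
      hq.continuous.add (continuous_const_smul t)
    exact (hη.comp h1).mul (continuous_J hq t)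
  have hin : ∫ v in box m (s + ε / 4), η (q v + t • v) * J q t v
      = Phi b' t (s + ε / 4) η := by
    unfold Phi
    refine setIntegral_congr_fun (box_meas m _).1 fun v hv => ?_
    have hqv : ∀ u ∈ box m (s + ε / 4), q u = b' u := by
      intro u hu
      simp only [hqdef]
      rw [hθ1 u hu, one_smul, add_sub_cancel]
    have hev : q =ᶠ[nhds v] b' :=
      Filter.eventuallyEq_of_mem ((box_meas m _).2.mem_nhds hv) hqv
    simp only [J]
    rw [hqv v hv, hev.fderiv_eq]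
  have hsplit : ∫ v in box m s, η (q v + t • v) * J q t v
      = (∫ v in box m (s + ε / 4), η (q v + t • v) * J q t v)
        + ∫ v in box m s \ box m (s + ε / 4), η (q v + t • v) * J q t v := by
    have h1 := integral_inter_add_diff (box_meas m (s + ε / 4)).1 (STEP_intOn hcont s)
    rw [Set.inter_eq_right.2 hsub] at h1
    exact h1.symm
  have hphi : Phi b t s η - Phi b' t (s + ε / 4) η
      = ∫ v in box m s \ box m (s + ε / 4), η (q v + t • v) * J q t v := by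
    rw [← hin]
    unfold Phi
    rw [hnl, hsplit]
    ring
  have hKP : ∀ v, ‖fderiv ℝ q v‖ ≤ C₁ * P := hDq
  have hJ : ∀ v, |J q t v| ≤ M₁ * ((C₁ + T) * P) ^ m := by
    intro v
    refine (STEP_J hdet hM₁ (hKP v) ht).trans (mul_le_mul_of_nonneg_left ?_ hM₁)
    refine pow_le_pow_left₀ (by positivity) ?_ m
    have : T * 1 ≤ T * P := mul_le_mul_of_nonneg_left hpow1 hT
    linarith
  have hvol := vol_layer (m := m) hs (show s ≤ s + ε / 4 by linarith) hs2.le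
  have hfin : volume (box m s \ box m (s + ε / 4)) < ⊤ :=
    lt_of_le_of_lt (measure_mono Set.diff_subset) (box_bdd m s).measure_lt_top
  have hle := norm_setIntegral_le_of_norm_le_const (μ := volume)
    (f := fun v => η (q v + t • v) * J q t v) (C := M₁ * ((C₁ + T) * P) ^ m) hfin
    (fun v _ => by
      rw [Real.norm_eq_abs, abs_mul]
      calc |η (q v + t • v)| * |J q t v| ≤ 1 * (M₁ * ((C₁ + T) * P) ^ m) :=
            mul_le_mul (hη1 _) (hJ v) (abs_nonneg _) zero_le_one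
        _ = M₁ * ((C₁ + T) * P) ^ m := one_mul _)
  rw [hphi, ← Real.norm_eq_abs]
  refine hle.trans ?_
  have hreal : volume.real (box m s \ box m (s + ε / 4)) ≤ 2 * m * (ε / 4) := by
    refine le_trans hvol (le_of_eq ?_)
    ring
  calc M₁ * ((C₁ + T) * P) ^ m * volume.real (box m s \ box m (s + ε / 4))
      ≤ M₁ * ((C₁ + T) * P) ^ m * (2 * m * (ε / 4)) :=
        mul_le_mul_of_nonneg_left hreal (by positivity)
    _ = m / 2 * (M₁ * (C₁ + T) ^ m) * (ε * P ^ m) := by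
        rw [mul_pow]
        ring
    _ = m / 2 * (M₁ * (C₁ + T) ^ m) * ε ^ (m * α - m + 1) := by
        rw [hP, STEP_pow hε]

end Vale.Agent.P127H
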