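import Vale.Agent.P127H.Step
import Vale.Agent.P127H.Moll

/-! Module TEL.  Hints: `b j` from `exists_moll` at `ε = 2^(-j)` (choice).  Step from `j` to `j+1` at
`ε = 2^(-(j+1))`: `‖Db_j‖ ≤ M 2^(-j(α-1)) ≤ M ε^(α-1)` (`α ≤ 1`), `|b_j - b_(j+1)| ≤ M 2^(-jα) + M ε^α ≤ 3 M ε^α`;
cutoff parameter `s_j = (2^(-J) - 2^(-j)) / 4`, `s_(j+1) = s_j + ε / 4`.  Geometric series `∑ ε_j^β`, `β = mα-m+1 > 0`. -/

open MeasureTheory

namespace Vale.Agent.P127H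

theorem telescope {m : ℕ} {a : Vec m → Vec m} {C α T : ℝ} (hC : 0 ≤ C) (hα : 0 < α) (hα1 : α ≤ 1)
    (hmα : (m : ℝ) - 1 < m * α) (hT : 0 ≤ T) (ha : ∀ v w, ‖a v - a w‖ ≤ C * ‖v - w‖ ^ α) :
    ∃ (b : ℕ → Vec m → Vec m) (M C' β : ℝ), 0 ≤ C' ∧ 0 < β ∧ 0 ≤ M ∧ (∀ j, ContDiff ℝ 1 (b j)) ∧
      (∀ j v, ‖b j v - a v‖ ≤ M * ((1 / 2 : ℝ) ^ j) ^ α) ∧
      ∀ J k : ℕ, J ≤ k → ∀ t : ℝ, |t| ≤ T → ∀ η : Vec m → ℝ, Continuous η → (∀ x, |η x| ≤ 1) →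
        |Phi (b J) t 0 η - Phi (b k) t (((1 / 2 : ℝ) ^ J - (1 / 2 : ℝ) ^ k) / 4) η| ≤
          C' * ((1 / 2 : ℝ) ^ J) ^ β := by
  obtain ⟨M, hM, hmoll⟩ := exists_moll hC hα hα1 ha
  have hε0 : ∀ j : ℕ, (0 : ℝ) < (1 / 2 : ℝ) ^ j := fun j => by positivity
  have hε1 : ∀ j : ℕ, (1 / 2 : ℝ) ^ j ≤ 1 := fun j => pow_le_one₀ (by norm_num) (by norm_num)
  have hex : ∀ j : ℕ, ∃ b : Vec m → Vec m, ContDiff ℝ 1 b ∧
      (∀ v, ‖b v - a v‖ ≤ M * ((1 / 2 : ℝ) ^ j) ^ α) ∧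
      ∀ v, ‖fderiv ℝ b v‖ ≤ M * ((1 / 2 : ℝ) ^ j) ^ (α - 1) :=
    fun j => hmoll _ (hε0 j) (hε1 j)
  choose b hb1 hb2 hb3 using hex
  obtain ⟨C₀, hC₀, hstep⟩ := step (m := m) (α := α) (M := 3 * M) (T := T) hα hα1 (by positivity) hT
  set β : ℝ := m * α - m + 1 with hβ
  have hβ0 : 0 < β := by rw [hβ]; linarith
  set r : ℝ := (1 / 2 : ℝ) ^ β with hr
  have hr0 : 0 < r := by rw [hr]; positivity
  have hr1 : r < 1 := Real.rpow_lt_one (by norm_num) (by norm_num) hβ0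
  have hpow : ∀ j : ℕ, ((1 / 2 : ℝ) ^ j) ^ β = r ^ j := by
    intro j
    rw [hr, Real.rpow_pow_comm (by norm_num)]
  have hone : ∀ J j : ℕ, J ≤ j → ∀ t : ℝ, |t| ≤ T → ∀ η : Vec m → ℝ, Continuous η →
      (∀ x, |η x| ≤ 1) →
      |Phi (b j) t (((1 / 2 : ℝ) ^ J - (1 / 2 : ℝ) ^ j) / 4) η -
        Phi (b (j + 1)) t (((1 / 2 : ℝ) ^ J - (1 / 2 : ℝ) ^ (j + 1)) / 4) η| ≤ C₀ * r ^ (j + 1) := by
    intro J j hJj t ht η hη hη1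
    have hs : ((1 / 2 : ℝ) ^ J - (1 / 2 : ℝ) ^ (j + 1)) / 4 =
        ((1 / 2 : ℝ) ^ J - (1 / 2 : ℝ) ^ j) / 4 + (1 / 2 : ℝ) ^ (j + 1) / 4 := by
      rw [pow_succ]
      ring
    have hJ : (1 / 2 : ℝ) ^ j ≤ (1 / 2 : ℝ) ^ J :=
      pow_le_pow_of_le_one (by norm_num) (by norm_num) hJj
    have hle : (1 / 2 : ℝ) ^ (j + 1) ≤ (1 / 2 : ℝ) ^ j :=
      pow_le_pow_of_le_one (by norm_num) (by norm_num) (Nat.le_succ j)
    have hr2 : ((1 / 2 : ℝ) ^ j) ^ (α - 1) ≤ ((1 / 2 : ℝ) ^ (j + 1)) ^ (α - 1) :=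
      Real.rpow_le_rpow_of_nonpos (hε0 _) hle (by linarith)
    have hp0 : 0 ≤ ((1 / 2 : ℝ) ^ (j + 1)) ^ (α - 1) := by positivity
    have hp1 : 0 ≤ ((1 / 2 : ℝ) ^ (j + 1)) ^ α := by positivity
    have hr3 : ((1 / 2 : ℝ) ^ j) ^ α ≤ 2 * ((1 / 2 : ℝ) ^ (j + 1)) ^ α := by
      have h1 : (1 / 2 : ℝ) ^ j = 2 * (1 / 2 : ℝ) ^ (j + 1) := by
        rw [pow_succ]
        ring
      rw [h1, Real.mul_rpow (by norm_num) (hε0 _).le]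
      refine mul_le_mul_of_nonneg_right ?_ hp1
      calc (2 : ℝ) ^ α ≤ (2 : ℝ) ^ (1 : ℝ) :=
            Real.rpow_le_rpow_of_exponent_le (by norm_num) hα1
        _ = 2 := Real.rpow_one 2
    have key := hstep ((1 / 2 : ℝ) ^ (j + 1)) (hε0 _) (hε1 _) (b j) (b (j + 1)) (hb1 j)
      (hb1 (j + 1)) (fun v => ?_) (fun v => ?_) (fun v => ?_)
      (((1 / 2 : ℝ) ^ J - (1 / 2 : ℝ) ^ j) / 4) ?_ ?_ t ht η hη hη1
    · rw [hs, ← hpow]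
      exact key
    · refine (hb3 j v).trans ?_
      calc M * ((1 / 2 : ℝ) ^ j) ^ (α - 1) ≤ M * ((1 / 2 : ℝ) ^ (j + 1)) ^ (α - 1) :=
            mul_le_mul_of_nonneg_left hr2 hM
        _ ≤ 3 * M * ((1 / 2 : ℝ) ^ (j + 1)) ^ (α - 1) :=
            mul_le_mul_of_nonneg_right (by linarith) hp0
    · refine (hb3 (j + 1) v).trans ?_
      exact mul_le_mul_of_nonneg_right (by linarith) hp0
    · have h1 : b j v - b (j + 1) v = (b j v - a v) - (b (j + 1) v - a v) := by abel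
      rw [h1]
      refine (norm_sub_le _ _).trans ?_
      have h2 := hb2 j v
      have h3 := hb2 (j + 1) v
      have h4 := mul_le_mul_of_nonneg_left hr3 hM
      linarith
    · linarith
    · have h5 := hε1 J
      have h6 := hε0 (j + 1)
      rw [← hs]
      linarith
  refine ⟨b, M, C₀ * (r / (1 - r)), β, ?_, hβ0, hM, hb1, hb2, ?_⟩
  · have : 0 < 1 - r := by linarith
    positivity
  intro J k hJk t ht η hη hη1
  rw [hpow]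
  have h1r : 0 < 1 - r := by linarith
  have hind : |Phi (b J) t 0 η - Phi (b k) t (((1 / 2 : ℝ) ^ J - (1 / 2 : ℝ) ^ k) / 4) η| ≤
      C₀ * (r / (1 - r)) * (r ^ J - r ^ k) := by
    induction k, hJk using Nat.le_induction with
    | base => simp
    | succ k hJk ih =>
      have h1 := hone J k hJk t ht η hη hη1
      have h2 := abs_sub_le (Phi (b J) t 0 η)
        (Phi (b k) t (((1 / 2 : ℝ) ^ J - (1 / 2 : ℝ) ^ k) / 4) η)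
        (Phi (b (k + 1)) t (((1 / 2 : ℝ) ^ J - (1 / 2 : ℝ) ^ (k + 1)) / 4) η)
      have h3 : C₀ * (r / (1 - r)) * (r ^ J - r ^ (k + 1)) =
          C₀ * (r / (1 - r)) * (r ^ J - r ^ k) + C₀ * r ^ (k + 1) := by
        field_simp
        ring
      rw [h3]
      linarith
  refine hind.trans ?_
  have h4 : 0 ≤ C₀ * (r / (1 - r)) := by positivity
  have h5 : 0 < r ^ k := by positivity
  exact mul_le_mul_of_nonneg_left (by linarith) h4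

end Vale.Agent.P127H
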